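import Vale.Agent.P180.R2.H259.Cyc.Rec

set_option linter.all false

/-!
P180: **source corners of blocks with cyclic defect groups have bounded dimension.**
-/

namespace Vale.Agent.P180.R2.H259.Cyc

open Vale.Agent.P180 Vale.Agent.P180.H768.Gd Vale.Agent.P180.R2.H799

universe u

/-- the bound for the dimension of source corners -/
def cycB (p n : ℕ) : ℕ := p * ∑ m ∈ Finset.range (n + 1), cyc p n m

theorem cyc_mono {p n n' : ℕ} (h : n ≤ n') (m : ℕ) : cyc p n m ≤ cyc p n' m := by
  induction m with
  | zero => exact le_refl _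
  | succ m ih => unfold cyc; gcongr

theorem cycB_mono {p n n' : ℕ} (h : n ≤ n') : cycB p n ≤ cycB p n' := by
  unfold cycB
  refine Nat.mul_le_mul_left _ ?_
  calc ∑ m ∈ Finset.range (n + 1), cyc p n m ≤ ∑ m ∈ Finset.range (n + 1), cyc p n' m :=
        Finset.sum_le_sum fun m _ => cyc_mono h m
    _ ≤ ∑ m ∈ Finset.range (n' + 1), cyc p n' m :=
        Finset.sum_le_sum_of_subset (Finset.range_mono (by omega))

variable {k : Type u} [Field k] {p : ℕ} [Fact p.Prime] [CharP k p]

/-- **T1.** Let `e` be a block of `kG` which is a relative trace from the cyclic `p`-subgroup `Q`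
and let `i = e i` be a primitive idempotent of `(kG)^Q` with non-zero Brauer image at `Q`. Then the
dimension of `i kG i` is bounded in terms of `|Q|`. -/
theorem cyclic_corner [IsAlgClosed k] {G : Type} [Group G] [Finite G] {Q : Subgroup G}
    (hQ : IsPGroup p Q) (hc : IsCyclic Q) {e a i : MonoidAlgebra k G} (he : IsBlockOf ⊤ e)
    (ha : a ∈ Fix (cj k G) Q) (hea : e = tr (cj k G) Q ⊤ a) (hi : PrimIn (Fix (cj k G) Q) i)
    (hei : e * i = i) (hbr : br Q i ≠ 0) :
    Module.finrank k (NN (⊤ : Subalgebra k (MonoidAlgebra k G)) i i) ≤ cycB p (Nat.card Q) := by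
  have hp : p.Prime := Fact.out
  obtain ⟨⟨g, hgQ⟩, hg⟩ := hc.exists_zpow_surjective
  have hQg : Q = Subgroup.zpowers g := by
    apply le_antisymm
    · intro x hx
      obtain ⟨n, hn⟩ := hg ⟨x, hx⟩
      exact Subgroup.mem_zpowers_iff.mpr ⟨n, congrArg Subtype.val hn⟩
    · rwa [Subgroup.zpowers_le]
  obtain ⟨m, hm⟩ := IsPGroup.iff_card.mp hQ
  have hord : orderOf g = p ^ m := by rw [← Nat.card_zpowers, ← hQg, hm]
  have hR : Subgroup.zpowers (g ^ (p ^ m)) = ⊥ := by
    rw [Subgroup.zpowers_eq_bot, ← hord, pow_orderOf_eq_one]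
  have h1 := cyc_rec (k := k) (p := p) (Nat.card Q) m G g Q ⊥ hQg hR.symm hQ le_rfl
    (by
      intro j hj h0
      have h2 := orderOf_dvd_of_pow_eq_one h0
      rw [hord] at h2
      exact absurd (Nat.le_of_dvd (pow_pos hp.pos j) h2)
        (not_le.mpr (Nat.pow_lt_pow_right hp.one_lt hj))) bot_le e a i he ha hea hi hei hbr
  have h2 := finrank_two_hom (p := p) (k := k) (MonoidHom.id G)
    (QuotientGroup.mk' (⊥ : Subgroup G)) (g := 1) (fun x => by rw [one_mul, mul_one])
    (by
      intro x y hxy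
      refine ⟨0, ?_⟩
      have h3 : ((x : G) : G ⧸ (⊥ : Subgroup G)) = (y : G) := hxy
      rw [QuotientGroup.eq, Subgroup.mem_bot, inv_mul_eq_one] at h3
      rw [pow_zero, one_mul, h3]) (by rw [one_pow, map_one]) (j := i) hi.idem
  have h3 : MonoidAlgebra.mapDomainAlgHom k k (MonoidHom.id G) i = i := by
    have h4 : ∀ x : MonoidAlgebra k G, MonoidAlgebra.mapDomainAlgHom k k (MonoidHom.id G) x = x := by
      intro x
      induction x using MonoidAlgebra.induction_linear with
      | zero => rw [map_zero]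
      | add x y hx hy => rw [map_add, hx, hy]
      | single x r => simp
    exact h4 i
  have h4 : ∀ {K : Type} [Group K] (f : G →* K) (hf : Function.Surjective f),
      SubAlg k f.range = (⊤ : Subalgebra k (MonoidAlgebra k K)) := by
    intro K _ f hf
    rw [eq_top_iff]
    intro x _
    rw [MonoidHom.range_eq_top.mpr hf]
    exact SubAlg_top x
  rw [h3, h4 _ Function.surjective_id, h4 _ (QuotientGroup.mk'_surjective _)] at h2
  refine h2.trans ?_
  unfold cycB
  refine Nat.mul_le_mul_left _ (h1.trans ?_)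
  refine Finset.single_le_sum (f := fun m => cyc p (Nat.card Q) m) (fun _ _ => Nat.zero_le _) ?_
  rw [Finset.mem_range]
  have h5 : m < Nat.card Q := by
    rw [hm]
    exact Nat.lt_pow_self hp.one_lt
  omega

end Vale.Agent.P180.R2.H259.Cyc
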