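import Vale.Agent.P180.R2.H259.Cyc.Sig

set_option linter.all false

/-!
P180: the Casimir data of a block of a group algebra.
-/

namespace Vale.Agent.P180.R2.H259.Cyc

open Vale.Agent.P180 Vale.Agent.P180.H768.Gd Vale.Agent.P180.R2.H799

universe u

variable {k : Type u} [Field k] {H : Type} [Group H] [Finite H]

theorem cas_group {g : H} {P : Subgroup H} (hP : P = Subgroup.zpowers g) [Fintype (H ⧸ P)]
    {ι w e : MonoidAlgebra k H} (hι : ι ∈ Fix (cj k H) P) (hw : w ∈ Fix (cj k H) P)
    (hιι : ι * ι = ι) (he : e = tr (cj k H) P ⊤ (ι * w)) :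
    H471.Cyc.Cas k e ι (MonoidAlgebra.single g (1 : k) - 1)
      (fun q : H ⧸ P => MonoidAlgebra.single q.out (1 : k))
      (fun q : H ⧸ P => w * MonoidAlgebra.single q.out⁻¹ (1 : k)) := by
  have hιw : ι * w ∈ Fix (cj k H) P := Subalgebra.mul_mem _ hι hw
  have hcι : ∀ u ∈ P, MonoidAlgebra.single u (1 : k) * ι = ι * MonoidAlgebra.single u 1 :=
    mem_Fix_cj_iff.1 hι
  have hcιw : ∀ u ∈ P, MonoidAlgebra.single u (1 : k) * (ι * w) =
      ι * w * MonoidAlgebra.single u 1 := mem_Fix_cj_iff.1 hιw
  refine ⟨?_, ?_⟩
  · rw [he, tr_top_eq_sum hιw]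
    refine Finset.sum_congr rfl fun q _ => ?_
    rw [cj_eq]
    simp only [mul_assoc]
  · intro M _ _ φ hφ x
    have hg : ∀ x y, φ (x * MonoidAlgebra.single g 1) y = φ x (MonoidAlgebra.single g 1 * y) := by
      intro x y
      have h1 := hφ x y
      rw [mul_sub, sub_mul, mul_one, one_mul, map_sub, map_sub, LinearMap.sub_apply] at h1
      exact sub_left_injective h1
    have hgn : ∀ (n : ℕ) x y, φ (x * MonoidAlgebra.single (g ^ n) 1) y =
        φ x (MonoidAlgebra.single (g ^ n) 1 * y) := by
      intro n
      induction n with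
      | zero => intro x y; rw [pow_zero, ← MonoidAlgebra.one_def, mul_one, one_mul]
      | succ n ih =>
        intro x y
        have h1 : MonoidAlgebra.single (g ^ (n + 1)) (1 : k) =
            MonoidAlgebra.single (g ^ n) 1 * MonoidAlgebra.single g 1 := by
          rw [MonoidAlgebra.single_mul_single, one_mul, pow_succ]
        rw [h1, ← mul_assoc, hg, ih, mul_assoc]
    have hu : ∀ u ∈ P, ∀ x y, φ (x * MonoidAlgebra.single u 1) y =
        φ x (MonoidAlgebra.single u 1 * y) := by
      intro u hu
      rw [hP] at hu
      obtain ⟨n, hn⟩ := ((isOfFinOrder_of_finite g).mem_powers_iff_mem_zpowers).mpr hu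
      have hn' : g ^ n = u := hn
      rw [← hn']
      exact hgn n
    induction x using MonoidAlgebra.induction_linear with
    | zero => simp
    | add x y hx hy =>
      simp only [add_mul, mul_add, map_add, LinearMap.add_apply, Finset.sum_add_distrib]
      rw [hx, hy]
    | single h r =>
      have hr : MonoidAlgebra.single h r = r • MonoidAlgebra.single h (1 : k) := by
        rw [MonoidAlgebra.smul_single, smul_eq_mul, mul_one]
      rw [hr]
      simp only [smul_mul_assoc, mul_smul_comm, map_smul, LinearMap.smul_apply, ← Finset.smul_sum]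
      congr 1
      let F : H → M := fun t => φ (MonoidAlgebra.single t 1 * ι)
        (ι * w * MonoidAlgebra.single (t⁻¹ * h) 1)
      have hF : ∀ t, ∀ u ∈ P, F (t * u) = F t := by
        intro t u huP
        have e1 : MonoidAlgebra.single (t * u) (1 : k) * ι =
            MonoidAlgebra.single t 1 * ι * MonoidAlgebra.single u 1 := by
          have : MonoidAlgebra.single (t * u) (1 : k) =
              MonoidAlgebra.single t 1 * MonoidAlgebra.single u 1 := by
            rw [MonoidAlgebra.single_mul_single, one_mul]
          rw [this, mul_assoc, hcι u huP, mul_assoc]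
        have e2 : MonoidAlgebra.single u (1 : k) *
            (ι * w * MonoidAlgebra.single ((t * u)⁻¹ * h) 1) =
            ι * w * MonoidAlgebra.single (t⁻¹ * h) 1 := by
          rw [← mul_assoc, hcιw u huP, mul_assoc (ι * w), MonoidAlgebra.single_mul_single, one_mul]
          congr 2
          group
        change φ (MonoidAlgebra.single (t * u) 1 * ι) _ = _
        rw [e1, hu u huP, e2]
      have hF' : ∀ t : H, F ((t : H ⧸ P).out) = F t := by
        intro t
        have h1 : t⁻¹ * (t : H ⧸ P).out ∈ P := by
          rw [← QuotientGroup.eq, QuotientGroup.out_eq']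
        have h2 := hF t _ h1
        rwa [mul_inv_cancel_left] at h2
      have hL : ∀ q : H ⧸ P, φ (MonoidAlgebra.single h 1 * MonoidAlgebra.single q.out 1 * ι)
          (ι * (w * MonoidAlgebra.single q.out⁻¹ 1)) = F (h * q.out) := by
        intro q
        change _ = φ _ _
        rw [MonoidAlgebra.single_mul_single, one_mul, ← mul_assoc ι w]
        congr 3
        group
      have hR : ∀ q : H ⧸ P, φ (MonoidAlgebra.single q.out 1 * ι)
          (ι * (w * MonoidAlgebra.single q.out⁻¹ 1) * MonoidAlgebra.single h 1) = F q.out := by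
        intro q
        change _ = φ _ _
        congr 1
        simp only [mul_assoc, MonoidAlgebra.single_mul_single, one_mul]
      rw [Finset.sum_congr rfl fun q _ => hL q, Finset.sum_congr rfl fun q _ => hR q]
      refine Fintype.sum_bijective (fun q : H ⧸ P => h • q) (MulAction.bijective h) _ _ ?_
      intro q
      have h1 : h • q = ((h * q.out : H) : H ⧸ P) := by
        conv_lhs => rw [← QuotientGroup.out_eq' q]
        rfl
      rw [h1, hF']

end Vale.Agent.P180.R2.H259.Cyc
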