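import Vale.Agent.P180.R2.H259.Cyc.Quo
import Vale.Agent.P180.R2.H799.Chain

set_option linter.all false

/-!
P180: the dimension of `ι' k[N_H(Z)] ι'`.
-/

namespace Vale.Agent.P180.R2.H259.Cyc

open Vale.Agent.P180 Vale.Agent.P180.H768.Gd Vale.Agent.P180.R2.H799

universe u

variable {k : Type u} [Field k] {p : ℕ} [Fact p.Prime] [CharP k p] {G : Type} [Group G] [Finite G]

theorem isBlockOf_incl {T : Subgroup G} {e : MonoidAlgebra k T} (he : IsBlockOf ⊤ e) :
    IsBlockOf T (incl k T e) := by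
  have htop : (⊤ : Subgroup T).map T.subtype = T := by
    rw [← MonoidHom.range_eq_map, Subgroup.range_subtype]
  refine ⟨⟨incl_mem _ _, ?_⟩, ?_, ?_, ?_⟩
  · have h := (incl_mem_Fix_iff T ⊤ e).mpr he.mem.2
    rwa [htop] at h
  · change incl k T e * incl k T e = _
    rw [← map_mul, he.idem.eq]
  · intro h
    exact he.ne_zero (incl_injective (k := k) T (by rw [h, map_zero]))
  · intro c hc hcc hce
    obtain ⟨c', rfl⟩ := Vale.Agent.P180.exists_incl T hc.1
    have h1 : c' ∈ ZAlg k (⊤ : Subgroup T) := by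
      refine ⟨SubAlg_top _, (incl_mem_Fix_iff T ⊤ c').mp ?_⟩
      rw [htop]
      exact hc.2
    have h2 : IsIdempotentElem c' := incl_injective (k := k) T (by rw [map_mul]; exact hcc)
    have h3 : c' * e = c' := incl_injective (k := k) T (by rw [map_mul]; exact hce)
    rcases he.primitive c' h1 h2 h3 with h | h
    · left; rw [h, map_zero]
    · right; rw [h]

theorem cj_qmap (R : Subgroup G) [R.Normal] (t : G) (a : MonoidAlgebra k G) :
    cj k (G ⧸ R) (t : G ⧸ R) (KP.qmap k R a) = KP.qmap k R (cj k G t a) := by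
  rw [KP.qmap_cj, cj_eq]

theorem dim_next {R R₁ Q : Subgroup G} [R.Normal] [(R₁.subgroupOf (CC R₁)).Normal]
    (hQ : IsPGroup p Q) (hQC : Q ≤ CC R₁) (hRR : R ≤ R₁) (hRQ : R₁ ≤ Q)
    {s : G} (hs : R₁ = Subgroup.zpowers s) (hsp : s ^ p ∈ R) {i : MonoidAlgebra k G}
    (hi : PrimIn (Fix (cj k G) Q) i) (hbr : br Q i ≠ 0)
    {e₁ a₁ : MonoidAlgebra k (CC R₁)} (he₁ : IsBlockOf ⊤ e₁) (hei₁ : e₁ * res R₁ i = res R₁ i)
    (ha₁ : a₁ ∈ Fix (cj k (CC R₁)) (Q.subgroupOf (CC R₁)))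
    (hea₁ : e₁ = tr (cj k (CC R₁)) (Q.subgroupOf (CC R₁)) ⊤ a₁) {c : ℕ}
    (hc : Module.finrank k (NN (⊤ : Subalgebra k _)
      (KP.qmap k (R₁.subgroupOf (CC R₁)) (res R₁ i))
      (KP.qmap k (R₁.subgroupOf (CC R₁)) (res R₁ i))) ≤ c) :
    Module.finrank k (NN (SubAlg k (Subgroup.normalizer
      ((R₁.map (QuotientGroup.mk' R) : Subgroup (G ⧸ R)) : Set (G ⧸ R))))
      (br (R₁.map (QuotientGroup.mk' R)) (KP.qmap k R i))
      (br (R₁.map (QuotientGroup.mk' R)) (KP.qmap k R i))) ≤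
      Nat.card R₁ * (p * c * (p * c)) := by
  classical
  have hR₁ : IsPGroup p R₁ := hQ.to_le hRQ
  have hiR : i ∈ Fix (cj k G) R₁ := Fix_mono _ hRQ hi.mem
  have hprim := res_prim hQ hQC hRQ hi hbr
  have hsR : s ∈ R₁ := by rw [hs]; exact Subgroup.mem_zpowers s
  have hsC : s ∈ CC R₁ := hQC (hRQ hsR)
  set i₁ := res R₁ i with hi₁
  set A := MonoidAlgebra.mapDomainAlgHom k k (al R R₁) with hA
  have hAi : A i₁ = br (R₁.map (QuotientGroup.mk' R)) (KP.qmap k R i) := al_res hR₁ hiR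
  rw [← hAi]
  -- the dimension modulo `R₁`
  have h2 : Module.finrank k (NN (SubAlg k (al R R₁).range) (A i₁) (A i₁)) ≤ p * c := by
    have h3 := finrank_two_hom (p := p) (k := k) (al R R₁)
      (QuotientGroup.mk' (R₁.subgroupOf (CC R₁))) (g := ⟨s, hsC⟩) ?_ ?_ ?_ (j := i₁) hprim.idem
    · refine h3.trans (Nat.mul_le_mul_left _ ?_)
      refine le_trans (le_of_eq ?_) hc
      have h4 : (SubAlg k (QuotientGroup.mk' (R₁.subgroupOf (CC R₁))).range) =
          (⊤ : Subalgebra k (MonoidAlgebra k (CC R₁ ⧸ R₁.subgroupOf (CC R₁)))) := by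
        rw [eq_top_iff]
        intro x _
        rw [MonoidHom.range_eq_top.mpr (QuotientGroup.mk'_surjective _)]
        exact SubAlg_top x
      rw [h4]
      rfl
    · intro x
      apply Subtype.ext
      exact Subgroup.mem_centralizer_iff.mp x.2 s hsR
    · intro x y hxy
      have h5 : (x : G)⁻¹ * y ∈ R₁ := by
        have h6 : ((x : CC R₁) : CC R₁ ⧸ R₁.subgroupOf (CC R₁)) = (y : CC R₁) := hxy
        rw [QuotientGroup.eq, Subgroup.mem_subgroupOf] at h6
        exact h6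
      have h7 : ((x : G)⁻¹ * y)⁻¹ ∈ Subgroup.zpowers s := by
        rw [← hs]; exact R₁.inv_mem h5
      obtain ⟨n, hn⟩ := ((isOfFinOrder_of_finite s).mem_powers_iff_mem_zpowers).mpr h7
      refine ⟨n, ?_⟩
      congr 1
      apply Subtype.ext
      change (x : G) = s ^ n * y
      have hn' : s ^ n = ((x : G)⁻¹ * y)⁻¹ := hn
      have h8 : s ^ n * (y : G) = y * s ^ n := by
        have := Subgroup.mem_centralizer_iff.mp y.2 (s ^ n) (R₁.pow_mem hsR n)
        exact this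
      rw [h8, hn']
      group
    · change (((s ^ p : G)) : G ⧸ R) = 1
      rw [QuotientGroup.eq_one_iff]
      exact hsp
  -- the generation property
  have hQ₁ : IsPGroup p (Q.subgroupOf (CC R₁)) := hQ.comap_subtype
  have hce : ∀ x : MonoidAlgebra k (CC R₁), x * e₁ = e₁ * x := fun x =>
    commute_of_mem (SubAlg_top x) he₁.mem.2
  have hbr₁ : br (Q.subgroupOf (CC R₁)) (i₁ * e₁) ≠ 0 := by
    rw [hce, hei₁]
    exact br_res_ne hQC hRQ hbr
  obtain ⟨w, hw, hwe, hew⟩ := H365.gen he₁ hQ₁ ha₁ hea₁ hprim.mem hprim.idem hbr₁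
  have hgen : e₁ ∈ Submodule.span k {z | ∃ x y, z = x * i₁ * y} := by
    have _ := Fintype.ofFinite (CC R₁ ⧸ Q.subgroupOf (CC R₁))
    rw [hew, tr_top_eq_sum (Subalgebra.mul_mem _ hprim.mem hw)]
    refine Submodule.sum_mem _ fun q _ => Submodule.subset_span ?_
    refine ⟨MonoidAlgebra.single q.out 1, w * MonoidAlgebra.single q.out⁻¹ 1, ?_⟩
    rw [cj_eq]
    simp only [mul_assoc]
  have hfull : A e₁ ∈ Submodule.span k {z | ∃ x ∈ SubAlg k (al R R₁).range,
      ∃ y ∈ SubAlg k (al R R₁).range, z = x * A i₁ * y} := by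
    have h3 : ∀ z ∈ Submodule.span k {z : MonoidAlgebra k (CC R₁) | ∃ x y, z = x * i₁ * y},
        A z ∈ Submodule.span k {z | ∃ x ∈ SubAlg k (al R R₁).range,
          ∃ y ∈ SubAlg k (al R R₁).range, z = x * A i₁ * y} := by
      intro z hz
      induction hz using Submodule.span_induction with
      | mem z hz =>
        obtain ⟨x, y, rfl⟩ := hz
        exact Submodule.subset_span ⟨A x, mapDomain_mem_range _ _, A y, mapDomain_mem_range _ _,
          by rw [map_mul, map_mul]⟩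
      | zero => rw [map_zero]; exact Submodule.zero_mem _
      | add u v _ _ hu hv => rw [map_add]; exact Submodule.add_mem _ hu hv
      | smul r u _ hu => rw [map_smul]; exact Submodule.smul_mem _ r hu
    exact h3 _ hgen
  have hfin := corner_N (k := k) (G := G ⧸ R) (N := Subgroup.normalizer
      ((R₁.map (QuotientGroup.mk' R) : Subgroup (G ⧸ R)) : Set (G ⧸ R)))
    (C := (al R R₁).range) range_al_le (fun t ht c hc => range_al_conj hRR ht hc)
    (e := A e₁) (j := A i₁) (by rw [← map_mul, he₁.idem.eq]) ?_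
    (by rw [← map_mul, hprim.idem]) (mapDomain_mem_range _ _) (by rw [← map_mul, hei₁]) hfull ?_
  · refine hfin.trans ?_
    refine Nat.mul_le_mul (relIndex_al_le hRR hs) (Nat.mul_le_mul h2 h2)
  · refine ⟨mapDomain_mem_range _ _, ?_⟩
    rintro _ ⟨g, rfl⟩
    have h3 : cj k (G ⧸ R) (al R R₁ g) (A e₁) = A (cj k (CC R₁) g e₁) := by
      rw [cj_eq, cj_eq, map_mul, map_mul]
      simp [hA]
    rw [h3, he₁.mem.2 g trivial]
  · intro t ht
    obtain ⟨t, rfl⟩ := QuotientGroup.mk_surjective t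
    have h4 : ∀ n, n ∈ CC R₁ ↔ t * n * t⁻¹ ∈ CC R₁ := fun n => conj_mem_CC (mem_norm_iff hRR ht)
    rw [hA, mapDomain_al, cj_qmap]
    rcases block_dich h4 (isBlockOf_incl he₁) with h | h
    · left; rw [h]
    · right; rw [← map_mul, h, map_zero]

end Vale.Agent.P180.R2.H259.Cyc
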