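import Vale.Agent.P180.R2.H259.Cyc.Prim

set_option linter.all false

/-!
P180: the step from `G` to the centraliser `C` of a subgroup `R₁` of an abelian defect group `Q`.
-/

namespace Vale.Agent.P180.R2.H259.Cyc

open Vale.Agent.P180 Vale.Agent.P180.H768.Gd Vale.Agent.P180.R2.H799

universe u

variable {k : Type u} [Field k] {p : ℕ} [Fact p.Prime] [CharP k p] {G : Type} [Group G] [Finite G]

/-- the centraliser -/
abbrev CC (R : Subgroup G) : Subgroup G := Subgroup.centralizer (R : Set G)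

theorem br_br {R Q : Subgroup G} (hRQ : R ≤ Q) (a : MonoidAlgebra k G) :
    br Q (br R a) = br Q a := by
  classical
  apply MonoidAlgebra.coeff_injective
  ext x
  rw [br_coeff, br_coeff, br_coeff]
  split_ifs with h1 h2
  · rfl
  · exact absurd (Subgroup.centralizer_le (SetLike.coe_subset_coe.mpr hRQ) h1) h2
  · rfl

theorem map_subgroupOf_CC {R Q : Subgroup G} (hQC : Q ≤ CC R) :
    (Q.subgroupOf (CC R)).map (CC R).subtype = Q := by
  rw [Subgroup.subgroupOf_map_subtype, inf_eq_left.mpr hQC]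

theorem incl_Fix {R Q : Subgroup G} (hQC : Q ≤ CC R) {a : MonoidAlgebra k (CC R)}
    (ha : a ∈ Fix (cj k (CC R)) (Q.subgroupOf (CC R))) :
    incl k (CC R) a ∈ Fix (cj k G) Q := by
  have h := (incl_mem_Fix_iff (CC R) (Q.subgroupOf (CC R)) a).mpr ha
  rwa [map_subgroupOf_CC hQC] at h

theorem res_Fix {R Q : Subgroup G} (hQC : Q ≤ CC R) {a : MonoidAlgebra k G}
    (ha : a ∈ Fix (cj k G) Q) : res R a ∈ Fix (cj k (CC R)) (Q.subgroupOf (CC R)) := by
  rw [← incl_mem_Fix_iff, map_subgroupOf_CC hQC, incl_res]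
  intro d hd
  rw [← br_cj R (hQC hd), ha d hd]

theorem res_incl {R : Subgroup G} (a : MonoidAlgebra k (CC R)) :
    res R (incl k (CC R) a) = a := by
  apply incl_injective (k := k) (CC R)
  rw [incl_res, br_of_mem R (incl_mem _ a)]

theorem incl_br {R Q : Subgroup G} (hQC : Q ≤ CC R) (hRQ : R ≤ Q) (a : MonoidAlgebra k (CC R)) :
    incl k (CC R) (br (Q.subgroupOf (CC R)) a) = br Q (incl k (CC R) a) := by
  classical
  have hc : ∀ x : CC R, x ∈ Subgroup.centralizer ((Q.subgroupOf (CC R) : Subgroup (CC R)) : Set (CC R)) ↔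
      (x : G) ∈ Subgroup.centralizer (Q : Set G) := by
    intro x
    rw [mem_cent, mem_cent]
    constructor
    · intro h d hd
      exact congrArg Subtype.val (h ⟨d, hQC hd⟩ hd)
    · intro h d hd
      exact Subtype.ext (h d hd)
  induction a using MonoidAlgebra.induction_linear with
  | zero => rw [br_zero, map_zero, br_zero]
  | add a b ha hb => rw [br_add, map_add, map_add, br_add, ha, hb]
  | single x r =>
    by_cases hx : (x : G) ∈ Subgroup.centralizer (Q : Set G)
    · rw [br_of_mem _ (single_mem_SubAlg ((hc x).2 hx) r), incl_single,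
        br_of_mem _ (single_mem_SubAlg hx r)]
    · have h1 : br (Q.subgroupOf (CC R)) (MonoidAlgebra.single x r) = 0 := by
        apply MonoidAlgebra.coeff_injective
        ext y
        rw [br_coeff, MonoidAlgebra.coeff_zero, Finsupp.zero_apply]
        split_ifs with hy
        · rw [MonoidAlgebra.coeff_single, Finsupp.single_apply, if_neg]
          rintro rfl
          exact hx ((hc x).1 hy)
        · rfl
      have h2 : br Q (MonoidAlgebra.single (x : G) r) = 0 := by
        apply MonoidAlgebra.coeff_injective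
        ext y
        rw [br_coeff, MonoidAlgebra.coeff_zero, Finsupp.zero_apply]
        split_ifs with hy
        · rw [MonoidAlgebra.coeff_single, Finsupp.single_apply, if_neg]
          rintro rfl
          exact hx hy
        · rfl
      rw [h1, incl_single, h2, map_zero]

theorem br_res_ne {R Q : Subgroup G} (hQC : Q ≤ CC R) (hRQ : R ≤ Q) {i : MonoidAlgebra k G}
    (hbr : br Q i ≠ 0) : br (Q.subgroupOf (CC R)) (res R i) ≠ 0 := by
  intro h
  apply hbr
  have h1 := incl_br hQC hRQ (res R i)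
  rw [h, map_zero, incl_res, br_br hRQ] at h1
  exact h1.symm

theorem res_prim {R Q : Subgroup G} (hQ : IsPGroup p Q) (hQC : Q ≤ CC R) (hRQ : R ≤ Q)
    {i : MonoidAlgebra k G} (hi : PrimIn (Fix (cj k G) Q) i) (hbr : br Q i ≠ 0) :
    PrimIn (Fix (cj k (CC R)) (Q.subgroupOf (CC R))) (res R i) := by
  have hR : IsPGroup p R := hQ.to_le hRQ
  have hiR : i ∈ Fix (cj k G) R := Fix_mono _ hRQ hi.mem
  refine ⟨res_Fix hQC hi.mem, by rw [← res_mul hR hiR hiR, hi.idem], ?_, ?_⟩
  · intro h
    apply br_res_ne hQC hRQ hbr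
    rw [h, br_zero]
  · intro c hc hcc hci hic
    have hcF : incl k (CC R) c ∈ Fix (cj k G) Q := incl_Fix hQC hc
    have hcR : incl k (CC R) c ∈ Fix (cj k G) R := Fix_mono _ hRQ hcF
    set x := i * incl k (CC R) c * i with hx
    have hxF : x ∈ Fix (cj k G) Q :=
      Subalgebra.mul_mem _ (Subalgebra.mul_mem _ hi.mem hcF) hi.mem
    have hxR : x ∈ Fix (cj k G) R := Fix_mono _ hRQ hxF
    have hxc : res R x = c := by
      rw [hx, res_mul hR (Subalgebra.mul_mem _ hiR hcR) hiR, res_mul hR hiR hcR, res_incl, hic, hci]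
    have hpow : ∀ n : ℕ, res R (x ^ (n + 1)) = c := by
      intro n
      induction n with
      | zero => rw [zero_add, pow_one, hxc]
      | succ n ih =>
        rw [pow_succ, res_mul hR (Subalgebra.pow_mem _ hxR _) hxR, ih, hxc, hcc]
    rcases hi.dichotomy hxF (by rw [hx, ← mul_assoc, ← mul_assoc, hi.idem])
      (by rw [hx, mul_assoc, hi.idem]) with ⟨n, hn⟩ | ⟨y, hy, -, -, hxy, -⟩
    · left
      have h1 : x ^ (n + 1) = 0 := by rw [pow_succ, hn, zero_mul]
      rw [← hpow n, h1, res_zero]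
    · right
      have hyR : y ∈ Fix (cj k G) R := Fix_mono _ hRQ hy
      have h1 : c * res R y = res R i := by
        rw [← hxc, ← res_mul hR hxR hyR, hxy]
      calc c = c * res R i := hci.symm
        _ = c * (c * res R y) := by rw [h1]
        _ = c * res R y := by rw [← mul_assoc, hcc]
        _ = res R i := h1

/-- the block below a primitive idempotent -/
theorem exists_block {Q : Subgroup G} {i : MonoidAlgebra k G} (hi : PrimIn (Fix (cj k G) Q) i) :
    ∃ e, IsBlockOf ⊤ e ∧ e * i = i := by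
  obtain ⟨e, he, hne⟩ := exists_isPrimIn (ZAlg k (⊤ : Subgroup G)) (by exact ZAlg_comm) hi.ne_zero
  have hc : ∀ x : MonoidAlgebra k G, x * e = e * x := fun x =>
    commute_of_mem (SubAlg_top x) he.mem.2
  refine ⟨e, he, ?_⟩
  rcases hi.prim (i * e) (Subalgebra.mul_mem _ hi.mem (Fix_mono _ le_top he.mem.2))
    (by rw [mul_assoc, ← mul_assoc e, ← hc, mul_assoc i e e, he.idem.eq, ← mul_assoc, hi.idem])
    (by rw [mul_assoc, ← hc, ← mul_assoc, hi.idem])
    (by rw [← mul_assoc, hi.idem]) with h | h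
  · exact absurd h hne
  · rw [← hc, h]

theorem block_res {R Q : Subgroup G} (hQ : IsPGroup p Q) (hQC : Q ≤ CC R) (hRQ : R ≤ Q)
    {i : MonoidAlgebra k G} (hi : PrimIn (Fix (cj k G) Q) i) (hbr : br Q i ≠ 0)
    {e : MonoidAlgebra k G} (he : IsBlockOf ⊤ e) (hei : e * i = i)
    {e₁ : MonoidAlgebra k (CC R)} (he₁ : IsBlockOf ⊤ e₁) (hei₁ : e₁ * res R i = res R i) :
    e₁ * res R e = e₁ := by
  have hR : IsPGroup p R := hQ.to_le hRQ
  have heR : e ∈ Fix (cj k G) R := Fix_mono _ le_top he.mem.2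
  have hiR : i ∈ Fix (cj k G) R := Fix_mono _ hRQ hi.mem
  have h1 := res_ZAlg R he.mem
  have h2 : res R e * res R e = res R e := by rw [← res_mul hR heR heR, he.idem.eq]
  have h3 : e₁ * res R e = res R e * e₁ := ZAlg_comm _ he₁.mem _ h1
  rcases he₁.primitive (e₁ * res R e) (Subalgebra.mul_mem _ he₁.mem h1)
    (by
      change e₁ * res R e * (e₁ * res R e) = e₁ * res R e
      calc e₁ * res R e * (e₁ * res R e) = e₁ * (res R e * e₁) * res R e := by
            simp only [mul_assoc]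
        _ = e₁ * e₁ * (res R e * res R e) := by rw [← h3]; simp only [mul_assoc]
        _ = e₁ * res R e := by rw [he₁.idem.eq, h2])
    (by rw [mul_assoc, ← h3, ← mul_assoc, he₁.idem.eq]) with h | h
  · exfalso
    have h4 : res R i = 0 := by
      have h5 : res R i = e₁ * res R e * res R i := by
        rw [mul_assoc, ← res_mul hR heR hiR, hei, hei₁]
      rw [h5, h, zero_mul]
    apply br_res_ne hQC hRQ hbr
    rw [h4, br_zero]
  · exact h

/-- the block of the centraliser is a trace from `Q` -/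
theorem block_tr {R Q : Subgroup G} (hQ : IsPGroup p Q) (hQC : Q ≤ CC R) (hRQ : R ≤ Q)
    {e a : MonoidAlgebra k G} (ha : a ∈ Fix (cj k G) Q) (hea : e = tr (cj k G) Q ⊤ a)
    {e₁ : MonoidAlgebra k (CC R)} (he₁ : IsBlockOf ⊤ e₁) (h1 : e₁ * res R e = e₁)
    (hbr : br (Q.subgroupOf (CC R)) e₁ ≠ 0) :
    ∃ a₁ ∈ Fix (cj k (CC R)) (Q.subgroupOf (CC R)),
      e₁ = tr (cj k (CC R)) (Q.subgroupOf (CC R)) ⊤ a₁ := by
  classical
  obtain ⟨m, x, hx⟩ := mackey (CC R) ha
  have hfix : ∀ i, cj k G (x i) a ∈ Fix (cj k G) (CC R ⊓ conjS (x i) Q) := by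
    intro i
    refine conj_mem_Fix ha (x i) ?_
    intro h hh
    exact mem_conjS.mp hh.2
  have hresfix : ∀ i, res R (cj k G (x i) a) ∈
      Fix (cj k (CC R)) ((conjS (x i) Q).subgroupOf (CC R)) := by
    intro i
    rintro r hr
    apply incl_injective (k := k) (CC R)
    rw [incl_cj, incl_res, ← br_cj _ r.2, hfix i r ⟨r.2, hr⟩]
  have hterm : ∀ i, res R
      (tr (cj k G) (CC R ⊓ conjS (x i) Q) (CC R) (cj k G (x i) a)) =
      tr (cj k (CC R)) ((conjS (x i) Q).subgroupOf (CC R)) ⊤ (res R (cj k G (x i) a)) := by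
    intro i
    apply incl_injective (k := k) (CC R)
    rw [incl_res, br_tr_cent, incl_tr _ _ (hresfix i), incl_res, Subgroup.subgroupOf_map_subtype,
      inf_comm]
  have heq : e₁ = ∑ i, tr (cj k (CC R)) ((conjS (x i) Q).subgroupOf (CC R)) ⊤
      (e₁ * res R (cj k G (x i) a)) := by
    conv_lhs => rw [← h1, hea, hx, res_sum, Finset.mul_sum]
    exact Finset.sum_congr rfl fun i _ => by rw [hterm i, mul_tr he₁.mem.2]
  have hy : ∀ i, e₁ * res R (cj k G (x i) a) ∈
      Fix (cj k (CC R)) ((conjS (x i) Q).subgroupOf (CC R)) := fun i =>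
    Subalgebra.mul_mem _ (Fix_mono _ le_top he₁.mem.2) (hresfix i)
  have hcomm : ∀ y : MonoidAlgebra k (CC R), y * e₁ = e₁ * y := fun y =>
    commute_of_mem (SubAlg_top y) he₁.mem.2
  obtain ⟨i, -, y, hy1, hy2, hy3⟩ := he₁.exists_unit_of_sum (by exact ZAlg_comm) Finset.univ
    (fun i => tr (cj k (CC R)) ((conjS (x i) Q).subgroupOf (CC R)) ⊤
      (e₁ * res R (cj k G (x i) a)))
    (fun i _ => ⟨SubAlg_top _, tr_mem_Fix (hy i)⟩)
    (fun i _ => by
      rw [tr_mul he₁.mem.2, mul_assoc, hcomm, ← mul_assoc, he₁.idem.eq]) heq.symm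
  have he' : e₁ = tr (cj k (CC R)) ((conjS (x i) Q).subgroupOf (CC R)) ⊤
      (e₁ * res R (cj k G (x i) a) * y) := by
    rw [← tr_mul hy1.2, hy3]
  have hyF : e₁ * res R (cj k G (x i) a) * y ∈
      Fix (cj k (CC R)) ((conjS (x i) Q).subgroupOf (CC R)) :=
    Subalgebra.mul_mem _ (hy i) (Fix_mono _ le_top hy1.2)
  -- `Q` is conjugate to this subgroup
  obtain ⟨c, hc⟩ : ∃ c, (br (Q.subgroupOf (CC R)) e₁).coeff c ≠ 0 := by
    by_contra hcon
    push Not at hcon
    apply hbr
    apply MonoidAlgebra.coeff_injective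
    ext c
    rw [hcon c, MonoidAlgebra.coeff_zero, Finsupp.zero_apply]
  rw [br_coeff] at hc
  split_ifs at hc with hcent
  swap
  · exact absurd rfl hc
  have hQ' : IsPGroup p (Q.subgroupOf (CC R)) := hQ.comap_subtype
  obtain ⟨g, hg⟩ := exists_conj_le hQ' hyF he' (mem_cent.mp hcent) hc
  have hcard : Nat.card (conjS g ((conjS (x i) Q).subgroupOf (CC R)) : Subgroup (CC R)) ≤
      Nat.card (Q.subgroupOf (CC R)) := by
    have e1 : Nat.card (conjS g ((conjS (x i) Q).subgroupOf (CC R)) : Subgroup (CC R)) =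
        Nat.card ((conjS (x i) Q).subgroupOf (CC R)) :=
      Nat.card_congr (Subgroup.equivMapOfInjective _ _ (MulAut.conj g).injective).symm.toEquiv
    have e2 : Nat.card ((conjS (x i) Q).subgroupOf (CC R)) ≤ Nat.card Q := by
      have h1 : Nat.card (conjS (x i) Q) = Nat.card Q :=
        Nat.card_congr (Q.equivMapOfInjective _ (MulAut.conj (x i)).injective).symm.toEquiv
      rw [← h1]
      refine Nat.card_le_card_of_injective
        (fun y : (conjS (x i) Q).subgroupOf (CC R) =>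
          (⟨((y : CC R) : G), y.2⟩ : conjS (x i) Q)) ?_
      intro y z hyz
      apply Subtype.ext
      apply Subtype.ext
      exact congrArg (fun w : conjS (x i) Q => (w : G)) hyz
    have e3 : Nat.card (Q.subgroupOf (CC R)) = Nat.card Q :=
      Nat.card_congr (Subgroup.subgroupOfEquivOfLe hQC).toEquiv
    rw [e1, e3]
    exact e2
  have heqS : Q.subgroupOf (CC R) = conjS g ((conjS (x i) Q).subgroupOf (CC R)) :=
    Subgroup.eq_of_le_of_card_ge hg hcard
  obtain ⟨h2, h3⟩ := tr_conjS g hyF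
  refine ⟨cj k (CC R) g (e₁ * res R (cj k G (x i) a) * y), ?_, ?_⟩
  · rw [heqS]; exact h2
  · rw [heqS, h3]; exact he'

end Vale.Agent.P180.R2.H259.Cyc
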