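import Vale.Agent.P180.R2.H799.Jb
import Vale.Agent.P180.R2.H799.CornerN

set_option linter.all false

/-!
P180: primitive idempotents of fixed point algebras and the Brauer homomorphism.
-/

namespace Vale.Agent.P180.R2.H259.Cyc

open Vale.Agent.P180 Vale.Agent.P180.H768.Gd Vale.Agent.P180.R2.H799

universe u

/-- `e` is a primitive idempotent of the (not necessarily commutative) subalgebra `S`. -/
structure PrimIn {k A : Type*} [Field k] [Ring A] [Algebra k A] (S : Subalgebra k A) (e : A) :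
    Prop where
  mem : e ∈ S
  idem : e * e = e
  ne_zero : e ≠ 0
  prim : ∀ c ∈ S, c * c = c → c * e = c → e * c = c → c = 0 ∨ c = e

section Abs

variable {k A : Type*} [Field k] [Ring A] [Algebra k A]

theorem PrimIn.dichotomy [FiniteDimensional k A] {S : Subalgebra k A} {e : A} (he : PrimIn S e)
    {x : A} (hx : x ∈ S) (hex : e * x = x) (hxe : x * e = x) :
    IsNilpotent x ∨ ∃ y ∈ S, e * y = y ∧ y * e = y ∧ x * y = e ∧ y * x = e := by
  have hcomm : ∀ a ∈ ({x, e} : Set A), ∀ b ∈ ({x, e} : Set A), a * b = b * a := by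
    rintro a (rfl | rfl) b (rfl | rfl)
    · rfl
    · rw [hex, hxe]
    · rw [hex, hxe]
    · rfl
  let S' : Subalgebra k A := Algebra.adjoin k {x, e}
  have hS' : ∀ a ∈ S', ∀ b ∈ S', a * b = b * a := by
    intro a ha b hb
    have h := (Algebra.adjoinCommRingOfComm k hcomm).mul_comm ⟨a, ha⟩ ⟨b, hb⟩
    exact congrArg Subtype.val h
  have hle : S' ≤ S := by
    rw [Algebra.adjoin_le_iff]
    rintro a (rfl | rfl)
    · exact hx
    · exact he.mem
  have hxS : x ∈ S' := Algebra.subset_adjoin (Or.inl rfl)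
  have heS : e ∈ S' := Algebra.subset_adjoin (Or.inr rfl)
  have he' : IsPrimIn S' e := by
    refine ⟨heS, he.idem, he.ne_zero, ?_⟩
    intro c hc hcc hce
    exact he.prim c (hle hc) hcc hce (by rw [hS' e heS c hc, hce])
  rcases he'.dichotomy hS' hxS hxe with h | ⟨y, hy, hye, hxy⟩
  · exact Or.inl h
  · exact Or.inr ⟨y, hle hy, by rw [hS' e heS y hy, hye], hye, hxy, by rw [hS' y hy x hxS, hxy]⟩

end Abs

section Grp

variable {k : Type u} [Field k] {p : ℕ} [Fact p.Prime] [CharP k p] {G : Type} [Group G] [Finite G]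

instance : FiniteDimensional k (MonoidAlgebra k G) :=
  Module.Finite.equiv (MonoidAlgebra.coeffLinearEquiv k (M := G) (S := k)).symm

/-- `br_Q` kills proper traces -/
theorem br_tr_lt {R Q : Subgroup G} (hQ : IsPGroup p Q) (hRQ : R ≤ Q) (hne : ¬ Q ≤ R)
    {a : MonoidAlgebra k G} (ha : a ∈ Fix (cj k G) R) : br Q (tr (cj k G) R Q a) = 0 := by
  classical
  have _ := Fintype.ofFinite (Q ⧸ R.subgroupOf Q)
  apply MonoidAlgebra.coeff_injective
  ext x
  rw [br_coeff, MonoidAlgebra.coeff_zero, Finsupp.zero_apply]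
  split_ifs with hx
  · rw [tr_def, MonoidAlgebra.coeff_sum, Finsupp.finsetSum_apply]
    have h1 : ∀ q : Q ⧸ R.subgroupOf Q, (cj k G ((q.out : Q) : G) a).coeff x = a.coeff x := by
      intro q
      rw [cj_coeff]
      congr 1
      have := Subgroup.mem_centralizer_iff.mp hx ((q.out : Q) : G) (q.out : Q).2
      rw [mul_assoc, ← this, inv_mul_cancel_left]
    rw [Finset.sum_congr rfl fun q _ => h1 q, Finset.sum_const, Finset.card_univ,
      nsmul_eq_mul]
    have h2 : ((Fintype.card (Q ⧸ R.subgroupOf Q) : ℕ) : k) = 0 := by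
      have := KP.p_dvd_relIndex (k := k) (p := p) (H := R) hQ hne
      rwa [Subgroup.relIndex, Subgroup.index, Nat.card_eq_fintype_card] at this
    rw [h2, zero_mul]
  · rfl

/-- for `x ∈ i kG i` the trace `tr_R^Q x` is nilpotent if `R < Q` and `br_Q i ≠ 0` -/
theorem tr_nilp {R Q : Subgroup G} (hQ : IsPGroup p Q) (hRQ : R ≤ Q) (hne : ¬ Q ≤ R)
    {i : MonoidAlgebra k G} (hi : PrimIn (Fix (cj k G) Q) i) (hbr : br Q i ≠ 0)
    {a : MonoidAlgebra k G} (ha : a ∈ Fix (cj k G) R) (h1 : i * a = a) (h2 : a * i = a) :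
    IsNilpotent (tr (cj k G) R Q a) := by
  rcases hi.dichotomy (tr_mem_Fix ha) (by rw [mul_tr hi.mem, h1]) (by rw [tr_mul hi.mem, h2])
    with h | ⟨y, hy, -, -, hxy, -⟩
  · exact h
  · exfalso
    apply hbr
    rw [← hxy, tr_mul hy]
    exact br_tr_lt hQ hRQ hne (Subalgebra.mul_mem _ ha (Fix_mono _ hRQ hy))

/-- the strong form of `card_le_of_coeff` -/
theorem exists_conj_le {P Q : Subgroup G} (hQ : IsPGroup p Q)
    {e z : MonoidAlgebra k G} (hzF : z ∈ Fix (cj k G) P) (hez : e = tr (cj k G) P ⊤ z)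
    {c : G} (hc : ∀ h ∈ Q, h * c * h⁻¹ = c) (hec : e.coeff c ≠ 0) :
    ∃ x : G, Q ≤ conjS x P := by
  classical
  have _ := Fintype.ofFinite (G ⧸ P)
  let α : Q →* Equiv.Perm (G ⧸ P) := (MulAction.toPermHom G (G ⧸ P)).comp Q.subtype
  have hα : ∀ (v : Q) (x : G), α v (x : G ⧸ P) = (((v : G) * x : G) : G ⧸ P) := fun _ _ => rfl
  have hout : ∀ x : G, cj k G ((x : G ⧸ P).out) z = cj k G x z := by
    intro x
    have h1 : x⁻¹ * (x : G ⧸ P).out ∈ P := by
      rw [← QuotientGroup.eq, QuotientGroup.out_eq']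
    have h2 := hzF _ h1
    rw [map_mul_act] at h2
    calc cj k G ((x : G ⧸ P).out) z
        = cj k G x (cj k G x⁻¹ (cj k G ((x : G ⧸ P).out) z)) := by rw [map_act_inv]
      _ = cj k G x z := by rw [h2]
  let φ : G ⧸ P → k := fun q => (cj k G q.out z).coeff c
  have hφ : ∀ (v : Q) q, φ (α v q) = φ q := by
    intro v q
    obtain ⟨x, rfl⟩ := QuotientGroup.mk_surjective q
    change (cj k G _ z).coeff c = (cj k G _ z).coeff c
    rw [hα, hout, hout, cj_coeff, cj_coeff]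
    congr 1
    have h1 := hc (v : G)⁻¹ (Q.inv_mem v.2)
    rw [inv_inv] at h1
    calc ((v : G) * x)⁻¹ * c * ((v : G) * x) = x⁻¹ * ((v : G)⁻¹ * c * (v : G)) * x := by group
      _ = x⁻¹ * c * x := by rw [h1]
  have hsum : e.coeff c = ∑ q, φ q := by
    rw [hez, tr_top_eq_sum hzF, MonoidAlgebra.coeff_sum, Finsupp.finsetSum_apply]
  rw [sum_fixed hQ α φ hφ (fun q => ∀ v, α v q = q) (fun _ => Iff.rfl)] at hsum
  obtain ⟨q, -, hq⟩ := Finset.exists_ne_zero_of_sum_ne_zero (by rw [← hsum]; exact hec)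
  have hfix : ∀ v : Q, α v q = q := by
    by_contra h
    exact hq (if_neg h)
  obtain ⟨x, rfl⟩ := QuotientGroup.mk_surjective q
  refine ⟨x, fun v hv => ?_⟩
  have h1 := hfix ⟨v, hv⟩
  rw [hα, eq_comm, QuotientGroup.eq] at h1
  rw [mem_conjS, mul_assoc]
  exact h1

theorem tr_conjS (x : G) {E : Subgroup G} {a : MonoidAlgebra k G} (ha : a ∈ Fix (cj k G) E) :
    cj k G x a ∈ Fix (cj k G) (conjS x E) ∧
      tr (cj k G) (conjS x E) ⊤ (cj k G x a) = tr (cj k G) E ⊤ a := by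
  have h1 : cj k G x a ∈ Fix (cj k G) (conjS x E) :=
    conj_mem_Fix ha x fun h hh => mem_conjS.mp hh
  refine ⟨h1, ?_⟩
  have _ := Fintype.ofFinite (G ⧸ E)
  rw [tr_top_eq_sum ha, tr_eq_sum' (ι := G ⧸ E) h1 (fun q => q.out * x⁻¹)
    (fun _ => Subgroup.mem_top _)]
  · refine Finset.sum_congr rfl fun q _ => ?_
    rw [← map_mul_act, inv_mul_cancel_right]
  · intro q r h
    rw [← QuotientGroup.out_eq' q, ← QuotientGroup.out_eq' r, QuotientGroup.eq]
    have h2 := mem_conjS.mp h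
    have e : x⁻¹ * ((q.out * x⁻¹)⁻¹ * (r.out * x⁻¹)) * x = q.out⁻¹ * r.out := by group
    rwa [e] at h2
  · intro g _
    refine ⟨((g * x : G) : G ⧸ E), ?_⟩
    rw [mem_conjS]
    have h2 : (((g * x : G) : G ⧸ E).out)⁻¹ * (g * x) ∈ E := by
      rw [← QuotientGroup.eq, QuotientGroup.out_eq']
    have e : x⁻¹ * ((((g * x : G) : G ⧸ E).out * x⁻¹)⁻¹ * g) * x =
      (((g * x : G) : G ⧸ E).out)⁻¹ * (g * x) := by group
    rwa [e]

end Grp

end Vale.Agent.P180.R2.H259.Cyc
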