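import Vale.Agent.P180.R2.H259.Cyc.Next

set_option linter.all false

/-!
P180: the Brauer homomorphism and quotients by central `p`-subgroups.
-/

namespace Vale.Agent.P180.R2.H259.Cyc

open Vale.Agent.P180 Vale.Agent.P180.H768.Gd Vale.Agent.P180.R2.H799

universe u

variable {k : Type u} [Field k] {p : ℕ} [Fact p.Prime] [CharP k p] {G : Type} [Group G] [Finite G]

theorem qmap_coeff (R : Subgroup G) [R.Normal] [Fintype G] [DecidableEq (G ⧸ R)]
    (a : MonoidAlgebra k G) (h : G ⧸ R) :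
    (KP.qmap k R a).coeff h = ∑ x : G, if (x : G ⧸ R) = h then a.coeff x else 0 := by
  classical
  induction a using MonoidAlgebra.induction_linear with
  | zero => simp
  | add a b ha hb =>
    rw [map_add, MonoidAlgebra.coeff_add, Finsupp.add_apply, ha, hb, ← Finset.sum_add_distrib]
    refine Finset.sum_congr rfl fun x _ => ?_
    split_ifs
    · rw [MonoidAlgebra.coeff_add, Finsupp.add_apply]
    · rw [add_zero]
  | single y r =>
    rw [KP.qmap_single, MonoidAlgebra.coeff_single, Finsupp.single_apply,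
      Finset.sum_eq_single y]
    · rw [MonoidAlgebra.coeff_single, Finsupp.single_apply, if_pos rfl]
    · intro x _ hx
      rw [MonoidAlgebra.coeff_single, Finsupp.single_apply, if_neg (Ne.symm hx), ite_self]
    · intro h; exact absurd (Finset.mem_univ y) h

/-- the image of the Brauer homomorphism modulo a central subgroup -/
theorem qmap_br {R R₁ : Subgroup G} [R.Normal] (hR₁ : IsPGroup p R₁) {a : MonoidAlgebra k G}
    (ha : a ∈ Fix (cj k G) R₁) :
    KP.qmap k R (br R₁ a) = br (R₁.map (QuotientGroup.mk' R)) (KP.qmap k R a) := by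
  classical
  have _ := Fintype.ofFinite G
  have hmem : ∀ x : G, x ∈ Subgroup.centralizer (R₁ : Set G) →
      (x : G ⧸ R) ∈ Subgroup.centralizer ((R₁.map (QuotientGroup.mk' R) : Subgroup (G ⧸ R)) :
        Set (G ⧸ R)) := by
    intro x hx
    rw [Subgroup.mem_centralizer_iff]
    rintro _ ⟨r, hr, rfl⟩
    have := Subgroup.mem_centralizer_iff.mp hx r hr
    change ((r * x : G) : G ⧸ R) = ((x * r : G) : G ⧸ R)
    rw [this]
  apply MonoidAlgebra.coeff_injective
  ext h
  rw [qmap_coeff, br_coeff]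
  by_cases hh : h ∈ Subgroup.centralizer ((R₁.map (QuotientGroup.mk' R) : Subgroup (G ⧸ R)) :
        Set (G ⧸ R))
  · rw [if_pos hh, qmap_coeff]
    let α : R₁ →* Equiv.Perm G :=
      { toFun := fun d => (MulAut.conj (d : G)).toEquiv
        map_one' := by ext x; simp
        map_mul' := fun d d' => by ext x; simp [mul_assoc] }
    have hα : ∀ (v : R₁) (x : G), α v x = (v : G) * x * (v : G)⁻¹ := fun _ _ => rfl
    rw [sum_fixed hR₁ α (fun x => if (x : G ⧸ R) = h then a.coeff x else 0) ?_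
      (fun x => x ∈ Subgroup.centralizer (R₁ : Set G)) ?_]
    · refine Finset.sum_congr rfl fun x _ => ?_
      rw [br_coeff]
      split_ifs <;> rfl
    · intro v x
      rw [hα, coeff_conj ha v.2]
      have h1 : (((v : G) * x * (v : G)⁻¹ : G) : G ⧸ R) = h ↔ (x : G ⧸ R) = h := by
        have h2 : ((v : G) : G ⧸ R) * h = h * ((v : G) : G ⧸ R) :=
          Subgroup.mem_centralizer_iff.mp hh _ ⟨v, v.2, rfl⟩
        have h3 : (((v : G) * x * (v : G)⁻¹ : G) : G ⧸ R) =
            ((v : G) : G ⧸ R) * (x : G ⧸ R) * ((v : G) : G ⧸ R)⁻¹ := rfl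
        rw [h3, mul_inv_eq_iff_eq_mul, ← h2, mul_right_inj]
      simp only [h1]
    · intro x
      rw [mem_cent]
      exact ⟨fun h v => h v v.2, fun h d hd => h ⟨d, hd⟩⟩
  · rw [if_neg hh]
    refine Finset.sum_eq_zero fun x _ => ?_
    split_ifs with hx
    · rw [br_coeff, if_neg]
      intro h1
      exact hh (hx ▸ hmem x h1)
    · rfl

/-- the homomorphism from the centraliser to the quotient -/
def al (R R₁ : Subgroup G) [R.Normal] : CC R₁ →* G ⧸ R :=
  (QuotientGroup.mk' R).comp (CC R₁).subtype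

theorem al_apply (R R₁ : Subgroup G) [R.Normal] (c : CC R₁) : al R R₁ c = ((c : G) : G ⧸ R) := rfl

theorem mapDomain_al (R R₁ : Subgroup G) [R.Normal] (a : MonoidAlgebra k (CC R₁)) :
    MonoidAlgebra.mapDomainAlgHom k k (al R R₁) a = KP.qmap k R (incl k (CC R₁) a) := by
  induction a using MonoidAlgebra.induction_linear with
  | zero => simp
  | add a b ha hb => simp only [map_add, ha, hb]
  | single x r =>
    rw [incl_single, KP.qmap_single]
    simp [al_apply]

theorem al_res {R R₁ : Subgroup G} [R.Normal] (hR₁ : IsPGroup p R₁) {a : MonoidAlgebra k G}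
    (ha : a ∈ Fix (cj k G) R₁) :
    MonoidAlgebra.mapDomainAlgHom k k (al R R₁) (res R₁ a) =
      br (R₁.map (QuotientGroup.mk' R)) (KP.qmap k R a) := by
  rw [mapDomain_al, incl_res, qmap_br hR₁ ha]

section Norm

variable {R R₁ : Subgroup G} [R.Normal]

theorem mem_norm_iff (hRR : R ≤ R₁) {t : G} (ht : (t : G ⧸ R) ∈
    Subgroup.normalizer ((R₁.map (QuotientGroup.mk' R) : Subgroup (G ⧸ R)) : Set (G ⧸ R))) :
    ∀ r, r ∈ R₁ ↔ t * r * t⁻¹ ∈ R₁ := by
  have h1 : ∀ r : G, (r : G ⧸ R) ∈ R₁.map (QuotientGroup.mk' R) ↔ r ∈ R₁ := by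
    intro r
    constructor
    · rintro ⟨s, hs, hsr⟩
      have h2 : (s : G ⧸ R) = (r : G ⧸ R) := hsr
      rw [QuotientGroup.eq] at h2
      have := R₁.mul_mem hs (hRR h2)
      rwa [mul_inv_cancel_left] at this
    · intro hr
      exact ⟨r, hr, rfl⟩
  intro r
  rw [← h1 r, Subgroup.mem_normalizer_iff.mp ht (r : G ⧸ R), ← h1]
  rfl

theorem conj_mem_CC {t : G} (ht : ∀ r, r ∈ R₁ ↔ t * r * t⁻¹ ∈ R₁) {c : G} :
    c ∈ CC R₁ ↔ t * c * t⁻¹ ∈ CC R₁ := by
  rw [mem_cent, mem_cent]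
  constructor
  · intro h r hr
    have h1 : t⁻¹ * r * t ∈ R₁ := by
      rw [ht]
      have e : t * (t⁻¹ * r * t) * t⁻¹ = r := by group
      rwa [e]
    have h2 := h _ h1
    calc r * (t * c * t⁻¹) * r⁻¹ = t * ((t⁻¹ * r * t) * c * (t⁻¹ * r * t)⁻¹) * t⁻¹ := by group
      _ = t * c * t⁻¹ := by rw [h2]
  · intro h r hr
    have h2 := h _ ((ht r).1 hr)
    have e : r * c * r⁻¹ = t⁻¹ * (t * r * t⁻¹ * (t * c * t⁻¹) * (t * r * t⁻¹)⁻¹) * t := by group
    rw [e, h2]
    group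

theorem range_al_le : (al R R₁).range ≤
    Subgroup.normalizer ((R₁.map (QuotientGroup.mk' R) : Subgroup (G ⧸ R)) : Set (G ⧸ R)) := by
  rintro _ ⟨c, rfl⟩
  rw [Subgroup.mem_normalizer_iff]
  have h1 : ∀ z ∈ R₁.map (QuotientGroup.mk' R), al R R₁ c * z = z * al R R₁ c := by
    rintro _ ⟨r, hr, rfl⟩
    have := Subgroup.mem_centralizer_iff.mp c.2 r hr
    change (((c : G) * r : G) : G ⧸ R) = ((r * (c : G) : G) : G ⧸ R)
    rw [this]
  intro z
  constructor
  · intro hz
    rw [h1 z hz, mul_inv_cancel_right]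
    exact hz
  · intro hz
    have h2 := h1 _ hz
    have e : z = (al R R₁ c)⁻¹ * (al R R₁ c * z * (al R R₁ c)⁻¹) * al R R₁ c := by group
    rw [e, mul_assoc, ← h2, inv_mul_cancel_left]
    exact hz

theorem range_al_conj (hRR : R ≤ R₁) {t : G ⧸ R} (ht : t ∈
    Subgroup.normalizer ((R₁.map (QuotientGroup.mk' R) : Subgroup (G ⧸ R)) : Set (G ⧸ R)))
    {c : G ⧸ R} (hc : c ∈ (al R R₁).range) : t * c * t⁻¹ ∈ (al R R₁).range := by
  obtain ⟨t, rfl⟩ := QuotientGroup.mk_surjective t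
  obtain ⟨c, rfl⟩ := hc
  exact ⟨⟨t * c * t⁻¹, (conj_mem_CC (mem_norm_iff hRR ht)).1 c.2⟩, rfl⟩

/-- the index of the centraliser in the normaliser -/
theorem relIndex_al_le (hRR : R ≤ R₁) {s : G} (hs : R₁ = Subgroup.zpowers s) :
    (al R R₁).range.relIndex
      (Subgroup.normalizer ((R₁.map (QuotientGroup.mk' R) : Subgroup (G ⧸ R)) : Set (G ⧸ R))) ≤
      Nat.card R₁ := by
  classical
  set N := Subgroup.normalizer ((R₁.map (QuotientGroup.mk' R) : Subgroup (G ⧸ R)) : Set (G ⧸ R))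
  have hsR : s ∈ R₁ := by rw [hs]; exact Subgroup.mem_zpowers s
  rw [Subgroup.relIndex, Subgroup.index]
  have hN : ∀ q : N ⧸ (al R R₁).range.subgroupOf N, ∀ r, r ∈ R₁ ↔
      ((q.out : N) : G ⧸ R).out * r * ((q.out : N) : G ⧸ R).out⁻¹ ∈ R₁ := by
    intro q
    apply mem_norm_iff hRR
    rw [QuotientGroup.out_eq']
    exact (q.out : N).2
  refine Nat.card_le_card_of_injective
    (fun q : N ⧸ (al R R₁).range.subgroupOf N => (⟨((q.out : N) : G ⧸ R).out * s *
      ((q.out : N) : G ⧸ R).out⁻¹, (hN q s).1 hsR⟩ : R₁)) ?_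
  intro q r hqr
  have h1 : ((q.out : N) : G ⧸ R).out * s * ((q.out : N) : G ⧸ R).out⁻¹ =
      ((r.out : N) : G ⧸ R).out * s * ((r.out : N) : G ⧸ R).out⁻¹ := congrArg Subtype.val hqr
  rw [← QuotientGroup.out_eq' q, ← QuotientGroup.out_eq' r, QuotientGroup.eq,
    Subgroup.mem_subgroupOf]
  have h2 : ((q.out : N) : G ⧸ R).out⁻¹ * ((r.out : N) : G ⧸ R).out ∈ CC R₁ := by
    rw [Subgroup.mem_centralizer_iff]
    intro y hy
    have hy' : y ∈ Subgroup.zpowers s := hs ▸ hy
    obtain ⟨j, rfl⟩ := Subgroup.mem_zpowers_iff.mp hy'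
    have h3 : Commute s (((q.out : N) : G ⧸ R).out⁻¹ * ((r.out : N) : G ⧸ R).out) := by
      change s * _ = _ * s
      calc s * (((q.out : N) : G ⧸ R).out⁻¹ * ((r.out : N) : G ⧸ R).out)
          = ((q.out : N) : G ⧸ R).out⁻¹ * (((q.out : N) : G ⧸ R).out * s *
            ((q.out : N) : G ⧸ R).out⁻¹) * ((r.out : N) : G ⧸ R).out := by group
        _ = _ := by rw [h1]; group
    exact (h3.zpow_left j).eq
  refine ⟨⟨_, h2⟩, ?_⟩
  rw [al_apply]
  change ((((q.out : N) : G ⧸ R).out : G) : G ⧸ R)⁻¹ * ((((r.out : N) : G ⧸ R).out : G) : G ⧸ R) = _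
  rw [QuotientGroup.out_eq', QuotientGroup.out_eq']
  rfl

end Norm

end Vale.Agent.P180.R2.H259.Cyc
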