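import Vale.Agent.P180.R2.H259.Cyc.Sig
import Vale.Agent.P180.R2.H365.Gen

set_option linter.all false

/-!
P180: the case of a central defect group.
-/

namespace Vale.Agent.P180.R2.H259.Cyc

open Vale.Agent.P180 Vale.Agent.P180.H768.Gd Vale.Agent.P180.R2.H799

universe u

section Abs

variable {k A : Type*} [Field k] [Ring A] [Algebra k A] [FiniteDimensional k A]

theorem PrimIn.exists_scalar [IsAlgClosed k] {S : Subalgebra k A} {e : A} (he : PrimIn S e)
    {x : A} (hx : x ∈ S) (hex : e * x = x) (hxe : x * e = x) :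
    ∃ c : k, IsNilpotent (x - c • e) := by
  have hcomm : ∀ a ∈ ({x, e} : Set A), ∀ b ∈ ({x, e} : Set A), a * b = b * a := by
    rintro a (rfl | rfl) b (rfl | rfl)
    · rfl
    · rw [hex, hxe]
    · rw [hex, hxe]
    · rfl
  let S' : Subalgebra k A := Algebra.adjoin k {x, e}
  have hS' : ∀ a ∈ S', ∀ b ∈ S', a * b = b * a := by
    intro a ha b hb
    have h := (Algebra.adjoinCommRingOfComm k hcomm).mul_comm ⟨a, ha⟩ ⟨b, hb⟩
    exact congrArg Subtype.val h
  have hle : S' ≤ S := by
    rw [Algebra.adjoin_le_iff]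
    rintro a (rfl | rfl)
    · exact hx
    · exact he.mem
  have hxS : x ∈ S' := Algebra.subset_adjoin (Or.inl rfl)
  have heS : e ∈ S' := Algebra.subset_adjoin (Or.inr rfl)
  have he' : IsPrimIn S' e := by
    refine ⟨heS, he.idem, he.ne_zero, ?_⟩
    intro c hc hcc hce
    exact he.prim c (hle hc) hcc hce (by rw [hS' e heS c hc, hce])
  obtain ⟨c, hc⟩ := KP.isPrimIn_exists_scalar hS' he' hxS
  exact ⟨c, by rwa [hxe] at hc⟩

/-- a product with a nilpotent element is not a unit -/
theorem PrimIn.mul_nilp {S : Subalgebra k A} {e : A} (he : PrimIn S e)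
    {n y : A} (hnS : n ∈ S) (hyS : y ∈ S) (hne : e * n = n) (hne' : n * e = n) (hye : e * y = y)
    (hye' : y * e = y) (hn : IsNilpotent n) : IsNilpotent (n * y) := by
  rcases he.dichotomy (S.mul_mem hnS hyS) (by rw [← mul_assoc, hne]) (by rw [mul_assoc, hye'])
    with h | ⟨z, hz, -, -, hz1, -⟩
  · exact h
  · exfalso
    obtain ⟨m, hm⟩ := hn
    have h1 : ∀ j, n ^ (m - j) * e = 0 := by
      intro j
      induction j with
      | zero => rw [Nat.sub_zero, hm, zero_mul]
      | succ j ih =>
        by_cases hj : m ≤ j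
        · have : m - (j + 1) = m - j := by omega
          rw [this, ih]
        · have h2 : m - j = (m - (j + 1)) + 1 := by omega
          rw [h2, pow_succ] at ih
          rw [← hz1]
          have h3 : n ^ (m - (j + 1)) * n = 0 := by
            rw [mul_assoc, hne'] at ih
            exact ih
          rw [← mul_assoc, ← mul_assoc, h3, zero_mul, zero_mul]
    have h2 := h1 m
    rw [Nat.sub_self, pow_zero, one_mul] at h2
    exact he.ne_zero h2

end Abs

section Grp

variable {k : Type u} [Field k] {p : ℕ} [Fact p.Prime] [CharP k p] {H : Type} [Group H] [Finite H]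

/-- a primitive idempotent of a block of defect zero -/
theorem dim_one [IsAlgClosed k] [Fintype H] {ι z e : MonoidAlgebra k H}
    (hι : PrimIn (⊤ : Subalgebra k (MonoidAlgebra k H)) ι) (hez : e = H365.TT z)
    (heι : e * ι = ι) :
    Module.finrank k (NN (⊤ : Subalgebra k (MonoidAlgebra k H)) ι ι) ≤ 1 := by
  -- nilpotent elements of the block have coefficient `0` at `1`
  have hnil : ∀ m : MonoidAlgebra k H, m * e = m → IsNilpotent m → m.coeff 1 = 0 := by
    intro m hme hm
    rw [← hme, hez, ← H365.trace_form]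
    have h1 : IsNilpotent (LinearMap.mulLeft k m ∘ₗ LinearMap.mulRight k z) := by
      have h2 : IsNilpotent (LinearMap.mulLeft k m) := by
        obtain ⟨n, hn⟩ := hm
        refine ⟨n, ?_⟩
        rw [LinearMap.pow_mulLeft, hn]
        ext x
        simp
      have h3 : Commute (LinearMap.mulLeft k m) (LinearMap.mulRight k z) := by
        change LinearMap.mulLeft k m ∘ₗ LinearMap.mulRight k z =
          LinearMap.mulRight k z ∘ₗ LinearMap.mulLeft k m
        apply LinearMap.ext
        intro x
        simp [mul_assoc]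
      exact h3.isNilpotent_mul_right h2
    exact (LinearMap.isNilpotent_trace_of_isNilpotent h1).eq_zero
  have hec : ∀ x, e * x = x * e := by
    intro x
    rw [hez]
    exact (commute_of_mem (SubAlg_top x) (H365.TT_fix z)).symm
  have key : ∀ x ∈ NN (⊤ : Subalgebra k (MonoidAlgebra k H)) ι ι, ∃ c : k, x = c • ι := by
    rintro x ⟨-, h1, h2⟩
    obtain ⟨c, hc⟩ := hι.exists_scalar (x := x) Algebra.mem_top h1 h2
    refine ⟨c, ?_⟩
    set n := x - c • ι with hn
    have hn1 : ι * n = n := by
      rw [hn, mul_sub, h1, mul_smul_comm, hι.idem]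
    have hn2 : n * ι = n := by
      rw [hn, sub_mul, h2, smul_mul_assoc, hι.idem]
    have h3 : ∀ y : MonoidAlgebra k H, (n * y).coeff 1 = 0 := by
      intro y
      have h4 : (n * y).coeff 1 = (n * (ι * y * ι)).coeff 1 := by
        calc (n * y).coeff 1 = (ι * (n * ι * y)).coeff 1 := by
              rw [← mul_assoc, ← mul_assoc, hn1, hn2]
          _ = (n * ι * y * ι).coeff 1 := by rw [H365.coeff_one_comm]
          _ = _ := by simp only [mul_assoc]
      rw [h4]
      refine hnil _ ?_ ?_
      · rw [← hec, ← mul_assoc]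
        have h6 : e * n = n := by
          conv_lhs => rw [← hn1, ← mul_assoc, heι]
          exact hn1
        rw [h6]
      · exact hι.mul_nilp Algebra.mem_top Algebra.mem_top hn1 hn2
          (by rw [← mul_assoc, ← mul_assoc, hι.idem]) (by rw [mul_assoc, hι.idem]) hc
    have h5 : n = 0 := by
      apply MonoidAlgebra.coeff_injective
      ext h
      rw [H365.coeff_eq_mul, h3]
      rfl
    exact sub_eq_zero.mp h5
  have hle : NN (⊤ : Subalgebra k (MonoidAlgebra k H)) ι ι ≤ Submodule.span k {ι} := by
    intro x hx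
    obtain ⟨c, rfl⟩ := key x hx
    exact Submodule.smul_mem _ c (Submodule.mem_span_singleton_self _)
  refine (Submodule.finrank_mono hle).trans ?_
  exact (finrank_span_le_card ({ι} : Set (MonoidAlgebra k H))).trans (by simp)

variable {G : Type} [Group G] [Finite G]

/-- the base case -/
theorem base_case [IsAlgClosed k] {Q : Subgroup G} [Q.Normal] (hQ : IsPGroup p Q)
    (hQc : Q ≤ Subgroup.center G) {s : G} (hs : Q = Subgroup.zpowers s)
    {e a i : MonoidAlgebra k G} (ha : a ∈ Fix (cj k G) Q) (hea : e = tr (cj k G) Q ⊤ a)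
    (hi : PrimIn (Fix (cj k G) Q) i) (hei : e * i = i) :
    Module.finrank k (NN (⊤ : Subalgebra k (MonoidAlgebra k (G ⧸ Q)))
      (KP.qmap k Q i) (KP.qmap k Q i)) ≤ 1 := by
  have _ := Fintype.ofFinite (G ⧸ Q)
  have hFix : ∀ x : MonoidAlgebra k G, x ∈ Fix (cj k G) Q := fun x =>
    KP.mem_Fix_of_central hQc x
  refine dim_one (z := KP.qmap k Q a) (e := KP.qmap k Q e) ?_ ?_ (by rw [← map_mul, hei])
  · -- `i` is not in the kernel
    have hne : KP.qmap k Q i ≠ 0 := by
      intro h0
      subst hs
      obtain ⟨v, hv⟩ := exists_of_qmap_zero h0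
      obtain ⟨m, hm⟩ := hQ ⟨s, Subgroup.mem_zpowers s⟩
      have hsm : s ^ (p ^ m) = 1 := congrArg Subtype.val hm
      have hcs : ∀ x : MonoidAlgebra k G, Commute (MonoidAlgebra.single s (1 : k) - 1) x := by
        intro x
        have h1 : Commute (MonoidAlgebra.single s (1 : k)) x := by
          have h2 := hFix x
          rw [mem_Fix_cj_iff] at h2
          exact h2 s (Subgroup.mem_zpowers s)
        exact h1.sub_left (Commute.one_left x)
      have h3 : (MonoidAlgebra.single s (1 : k) - 1) ^ (p ^ m) = 0 := by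
        have _ : CharP (MonoidAlgebra k G) p :=
          charP_of_injective_algebraMap (algebraMap k (MonoidAlgebra k G)).injective p
        rw [sub_pow_char_pow_of_commute p m (Commute.one_right _), one_pow,
          MonoidAlgebra.single_pow, one_pow, hsm, ← MonoidAlgebra.one_def, sub_self]
      have h4 : i ^ (p ^ m) = 0 := by
        rw [hv, (hcs v).mul_pow, h3, zero_mul]
      have h5 : i ^ (p ^ m) = i := by
        have : IsIdempotentElem i := hi.idem
        exact this.pow_eq ((pow_pos (Fact.out : p.Prime).pos m).ne')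
      exact hi.ne_zero (h5.symm.trans h4)
    refine ⟨Algebra.mem_top, by rw [← map_mul, hi.idem], hne, ?_⟩
    intro c _ hcc hci hic
    obtain ⟨c', rfl⟩ := KP.qmap_surjective Q c
    set x := i * c' * i with hx
    have hxc : KP.qmap k Q x = KP.qmap k Q c' := by
      rw [hx, map_mul, map_mul, hic, hci]
    rcases hi.dichotomy (hFix x) (by rw [hx, ← mul_assoc, ← mul_assoc, hi.idem])
      (by rw [hx, mul_assoc, hi.idem]) with ⟨n, hn⟩ | ⟨y, hy, -, -, hxy, -⟩
    · left
      have h1 : (KP.qmap k Q c') ^ (n + 1) = 0 := by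
        rw [← hxc, ← map_pow, pow_succ, hn, zero_mul, map_zero]
      have h2 : (KP.qmap k Q c') ^ (n + 1) = KP.qmap k Q c' := by
        have : IsIdempotentElem (KP.qmap k Q c') := hcc
        exact this.pow_succ_eq n
      rw [← h2, h1]
    · right
      have h1 : KP.qmap k Q c' * KP.qmap k Q y = KP.qmap k Q i := by
        rw [← hxc, ← map_mul, hxy]
      calc KP.qmap k Q c' = KP.qmap k Q c' * KP.qmap k Q i := hci.symm
        _ = KP.qmap k Q c' * (KP.qmap k Q c' * KP.qmap k Q y) := by rw [h1]
        _ = KP.qmap k Q c' * KP.qmap k Q y := by rw [← mul_assoc, hcc]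
        _ = KP.qmap k Q i := h1
  · rw [hea, H365.qmap_tr Q ha]

end Grp

end Vale.Agent.P180.R2.H259.Cyc
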