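import Vale.Agent.P180.R2.H259.Cyc.Dim
import Vale.Agent.P180.R2.H259.Cyc.Zero
import Vale.Agent.P180.R2.H259.Cyc.CasG
import Vale.Agent.P180.R2.H799.TauWI

set_option linter.all false

/-!
P180: the dimension of the source corners of blocks with cyclic defect groups.
-/

namespace Vale.Agent.P180.R2.H259.Cyc

open Vale.Agent.P180 Vale.Agent.P180.H768.Gd Vale.Agent.P180.R2.H799

universe u

/-- the constants -/
def cyc (p n : ℕ) : ℕ → ℕ
  | 0 => 1
  | m + 1 => (n * (n * (n * (p * cyc p n m * (p * cyc p n m))))) *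
      ((n * (n * (p * cyc p n m * (p * cyc p n m))) + 1) *
        (n * (n * (n * (p * cyc p n m * (p * cyc p n m))))))

section CycGrp

variable {p : ℕ} [Fact p.Prime] {H : Type*} [Group H] [Finite H]

theorem hmin_cyc {g : H} {m : ℕ} (hord : orderOf g = p ^ (m + 1)) {S : Subgroup H}
    (hS : S ≤ Subgroup.zpowers g) (hne : S ≠ ⊥) : Subgroup.zpowers (g ^ (p ^ m)) ≤ S := by
  have hp : p.Prime := Fact.out
  obtain ⟨⟨s, hs⟩, hs1⟩ := Subgroup.ne_bot_iff_exists_ne_one.mp hne
  have hs1' : s ≠ 1 := fun h => hs1 (Subtype.ext h)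
  obtain ⟨j, hj⟩ := ((isOfFinOrder_of_finite g).mem_powers_iff_mem_zpowers).mpr (hS hs)
  have hj' : g ^ j = s := hj
  have hj0 : j ≠ 0 := by
    rintro rfl
    rw [pow_zero] at hj'
    exact hs1' hj'.symm
  obtain ⟨a, u, hu, hju⟩ := Nat.exists_eq_pow_mul_and_not_dvd hj0 p hp.ne_one
  have ham : a ≤ m := by
    by_contra hcon
    apply hs1'
    have h1 : p ^ (m + 1) ∣ j := by
      rw [hju]
      exact Dvd.dvd.mul_right (pow_dvd_pow p (by omega)) u
    rw [← hj']
    exact orderOf_dvd_iff_pow_eq_one.mp (by rw [hord]; exact h1)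
  set x := g ^ (p ^ m) with hx
  have hxo : orderOf x = p := by
    rw [hx, orderOf_pow, hord, Nat.gcd_eq_right (pow_dvd_pow p (Nat.le_succ m)), pow_succ,
      Nat.mul_div_cancel_left _ (pow_pos hp.pos m)]
  have hxu : x ^ u ∈ S := by
    have h1 : x ^ u = s ^ (p ^ (m - a)) := by
      rw [hx, ← hj', ← pow_mul, ← pow_mul, hju]
      congr 1
      have h2 : p ^ m = p ^ a * p ^ (m - a) := by rw [← pow_add, Nat.add_sub_cancel' ham]
      rw [h2]; ring
    rw [h1]
    exact S.pow_mem hs _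
  have hcop : Nat.Coprime u (orderOf x) := by
    rw [hxo]
    exact (Nat.Coprime.symm ((hp.coprime_iff_not_dvd).mpr hu))
  obtain ⟨v, hv⟩ := exists_pow_eq_self_of_coprime hcop
  rw [Subgroup.zpowers_le, ← hv]
  exact S.pow_mem hxu v

theorem orderOf_mk {g : H} {m : ℕ} (hg : IsPGroup p (Subgroup.zpowers g)) {R : Subgroup H}
    [R.Normal] (hR : R = Subgroup.zpowers (g ^ (p ^ (m + 1)))) (hne : g ^ (p ^ m) ≠ 1) :
    orderOf (g : H ⧸ R) = p ^ (m + 1) := by
  have hp : p.Prime := Fact.out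
  apply orderOf_eq_prime_pow
  · intro h
    have h1 : g ^ (p ^ m) ∈ R := by
      rw [← QuotientGroup.eq_one_iff]
      exact h
    rw [hR] at h1
    obtain ⟨j, hj⟩ := ((isOfFinOrder_of_finite _).mem_powers_iff_mem_zpowers).mpr h1
    have hj' : (g ^ (p ^ (m + 1))) ^ j = g ^ (p ^ m) := hj
    set y := g ^ (p ^ m) with hy
    have h2 : y ^ (p * j) = y ^ 1 := by
      rw [pow_one]
      conv_rhs => rw [← hj']
      rw [hy, ← pow_mul, ← pow_mul]
      congr 1
      ring
    have h3 := pow_eq_pow_iff_modEq.mp h2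
    have h4 : p ∣ orderOf y := by
      obtain ⟨t, ht⟩ := hg ⟨y, Subgroup.pow_mem _ (Subgroup.mem_zpowers g) _⟩
      have ht' : y ^ p ^ t = 1 := congrArg Subtype.val ht
      obtain ⟨r, -, hr⟩ := (Nat.dvd_prime_pow hp).mp (orderOf_dvd_of_pow_eq_one ht')
      rcases r with _ | r
      · exfalso
        rw [pow_zero, orderOf_eq_one_iff] at hr
        exact hne hr
      · rw [hr, pow_succ]; exact Dvd.intro_left _ rfl
    have h5 : p * j ≡ 1 [MOD p] := h3.of_dvd h4
    have h6 : p ∣ 1 := by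
      have h7 : (p * j) % p = 1 % p := h5
      rw [Nat.mul_mod_right] at h7
      exact Nat.dvd_of_mod_eq_zero h7.symm
    exact hp.one_lt.ne' (Nat.dvd_one.mp h6)
  · have h1 : g ^ (p ^ (m + 1)) ∈ R := by rw [hR]; exact Subgroup.mem_zpowers _
    have h2 := (QuotientGroup.eq_one_iff (N := R) (g ^ (p ^ (m + 1)))).mpr h1
    exact h2

theorem subgroupOf_zpowers {C : Subgroup H} {x : H} (hx : x ∈ C) :
    (Subgroup.zpowers x).subgroupOf C = Subgroup.zpowers (⟨x, hx⟩ : C) := by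
  ext y
  rw [Subgroup.mem_subgroupOf, Subgroup.mem_zpowers_iff, Subgroup.mem_zpowers_iff]
  constructor
  · rintro ⟨n, hn⟩
    exact ⟨n, Subtype.ext (by rw [← hn]; rfl)⟩
  · rintro ⟨n, hn⟩
    exact ⟨n, by rw [← hn]; rfl⟩

end CycGrp

variable {k : Type u} [Field k] {p : ℕ} [Fact p.Prime] [CharP k p]

theorem cyc_rec [IsAlgClosed k] (n : ℕ) (m : ℕ) : ∀ (G : Type) [Group G] [Finite G] (g : G)
    (Q R : Subgroup G) [R.Normal], Q = Subgroup.zpowers g → R = Subgroup.zpowers (g ^ (p ^ m)) →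
    IsPGroup p Q → Nat.card Q ≤ n → (∀ j < m, g ^ (p ^ j) ≠ 1) → R ≤ Subgroup.center G →
    ∀ (e a i : MonoidAlgebra k G), IsBlockOf ⊤ e → a ∈ Fix (cj k G) Q →
      e = tr (cj k G) Q ⊤ a → PrimIn (Fix (cj k G) Q) i → e * i = i → br Q i ≠ 0 →
      Module.finrank k (NN (⊤ : Subalgebra k (MonoidAlgebra k (G ⧸ R)))
        (KP.qmap k R i) (KP.qmap k R i)) ≤ cyc p n m := by
  have hp : p.Prime := Fact.out
  induction m with
  | zero =>
    intro G _ _ g Q R _ hQg hRg hQ hn hne hRc e a i he ha hea hi hei hbr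
    have hRQ : R = Q := by rw [hQg, hRg, pow_zero, pow_one]
    subst hRQ
    exact base_case hQ hRc hQg ha hea hi hei
  | succ m ih =>
    intro G _ _ g Q R _ hQg hRg hQ hn hne hRc e a i he ha hea hi hei hbr
    have hgQ : g ∈ Q := by rw [hQg]; exact Subgroup.mem_zpowers g
    have hgm : g ^ (p ^ m) ≠ 1 := hne m (Nat.lt_succ_self m)
    have hpg : IsPGroup p (Subgroup.zpowers g) := by rw [← hQg]; exact hQ
    have hord : orderOf (g : G ⧸ R) = p ^ (m + 1) := orderOf_mk hpg hRg hgm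
    -- the next subgroup
    set s := g ^ (p ^ m) with hs
    set R₁ := Subgroup.zpowers s with hR₁
    have hsp : s ^ p ∈ R := by
      rw [hRg, hs, ← pow_mul, ← pow_succ]
      exact Subgroup.mem_zpowers _
    have hRQ₁ : R₁ ≤ Q := by
      rw [hR₁, Subgroup.zpowers_le]
      exact Q.pow_mem hgQ _
    have hRR : R ≤ R₁ := by
      rw [hRg, Subgroup.zpowers_le, pow_succ, pow_mul]
      exact Subgroup.pow_mem _ (Subgroup.mem_zpowers _) _
    have hcommQ : ∀ x ∈ Q, ∀ y ∈ Q, x * y = y * x := by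
      intro x hx y hy
      rw [hQg] at hx hy
      obtain ⟨c, rfl⟩ := Subgroup.mem_zpowers_iff.mp hx
      obtain ⟨d, rfl⟩ := Subgroup.mem_zpowers_iff.mp hy
      rw [← zpow_add, ← zpow_add, add_comm]
    have hQC : Q ≤ CC R₁ := le_cent_of_comm hcommQ hRQ₁
    have hgC : g ∈ CC R₁ := hQC hgQ
    have hsC : s ∈ CC R₁ := hQC (Q.pow_mem hgQ _)
    have hcent : R₁.subgroupOf (CC R₁) ≤ Subgroup.center (CC R₁) := by
      intro x hx
      rw [Subgroup.mem_center_iff]
      intro y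
      apply Subtype.ext
      exact (Subgroup.mem_centralizer_iff.mp y.2 x hx).symm
    haveI hnorm : (R₁.subgroupOf (CC R₁)).Normal := by
      refine ⟨fun x hx y => ?_⟩
      rw [Subgroup.mem_center_iff.mp (hcent hx) y, mul_inv_cancel_right]
      exact hx
    have hQ₁ : IsPGroup p (Q.subgroupOf (CC R₁)) := hQ.comap_subtype
    have hprim := res_prim hQ hQC hRQ₁ hi hbr
    have hbr₁ := br_res_ne hQC hRQ₁ hbr
    obtain ⟨e₁, he₁, hei₁⟩ := exists_block hprim
    have h1 := block_res hQ hQC hRQ₁ hi hbr he hei he₁ hei₁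
    have hbre : br (Q.subgroupOf (CC R₁)) e₁ ≠ 0 := by
      intro h0
      apply hbr₁
      rw [← hei₁, br_mul hQ₁ (Fix_mono _ le_top he₁.mem.2) hprim.mem, h0, zero_mul]
    obtain ⟨a₁, ha₁, hea₁⟩ := block_tr hQ hQC hRQ₁ ha hea he₁ h1 hbre
    have hcard₁ : Nat.card (Q.subgroupOf (CC R₁)) = Nat.card Q :=
      Nat.card_congr (Subgroup.subgroupOfEquivOfLe hQC).toEquiv
    have hih := ih (CC R₁) ⟨g, hgC⟩ (Q.subgroupOf (CC R₁)) (R₁.subgroupOf (CC R₁))
      (by rw [← subgroupOf_zpowers hgC, hQg])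
      ((subgroupOf_zpowers hsC).trans (congrArg Subgroup.zpowers (Subtype.ext rfl)))
      hQ₁ (by rw [hcard₁]; exact hn)
      (by
        intro j hj h0
        exact hne j (Nat.lt_succ_of_lt hj) (congrArg Subtype.val h0))
      hcent e₁ a₁ (res R₁ i) he₁ ha₁ hea₁ hprim hei₁ hbr₁
    have hdim := dim_next (R := R) (R₁ := R₁) hQ hQC hRR hRQ₁ (s := s) rfl hsp hi hbr he₁ hei₁
      ha₁ hea₁ hih
    set c := cyc p n m with hc
    have hR₁n : Nat.card R₁ ≤ n := (Subgroup.card_le_of_le hRQ₁).trans hn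
    have hT : Module.finrank k (NN (SubAlg k (Subgroup.normalizer
        ((R₁.map (QuotientGroup.mk' R) : Subgroup (G ⧸ R)) : Set (G ⧸ R))))
        (br (R₁.map (QuotientGroup.mk' R)) (KP.qmap k R i))
        (br (R₁.map (QuotientGroup.mk' R)) (KP.qmap k R i))) ≤ n * (p * c * (p * c)) :=
      hdim.trans (Nat.mul_le_mul_right _ hR₁n)
    -- the quotient
    have hmapQ : Q.map (QuotientGroup.mk' R) = Subgroup.zpowers (g : G ⧸ R) := by
      rw [hQg, MonoidHom.map_zpowers]
      rfl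
    have hmapR : R₁.map (QuotientGroup.mk' R) = Subgroup.zpowers ((g : G ⧸ R) ^ (p ^ m)) := by
      rw [hR₁, MonoidHom.map_zpowers]
      rfl
    set ι := KP.qmap k R i with hι
    have hιι : ι * ι = ι := by rw [hι, ← map_mul, hi.idem]
    have hιF : ι ∈ Fix (cj k (G ⧸ R)) (Subgroup.zpowers (g : G ⧸ R)) := by
      rw [← hmapQ]
      exact qmap_Fix hi.mem
    have hPp : IsPGroup p (Subgroup.zpowers (g : G ⧸ R)) := by
      rw [← hmapQ]; exact hQ.map _
    have hZne : R₁.map (QuotientGroup.mk' R) ≠ ⊥ := by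
      rw [hmapR]
      intro h0
      rw [Subgroup.zpowers_eq_bot] at h0
      have h2 := orderOf_dvd_of_pow_eq_one h0
      rw [hord] at h2
      have h3 := Nat.le_of_dvd (pow_pos hp.pos m) h2
      exact absurd h3 (not_le.mpr (Nat.pow_lt_pow_right hp.one_lt (Nat.lt_succ_self m)))
    have htau : ∀ t, H471.Cyc.tau k ι (MonoidAlgebra.single (g : G ⧸ R) (1 : k) - 1) (p ^ (m + 1))
        (MonoidAlgebra k (G ⧸ R) ⧸ H471.Cyc.WI ι
          (MonoidAlgebra.single (g : G ⧸ R) (1 : k) - 1) t) ≤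
        ((n * (p * c * (p * c)) : ℕ) : ℤ) := by
      intro t
      refine (tau_WI_le (Z := R₁.map (QuotientGroup.mk' R)) (by rw [Nat.card_zpowers, hord]) hPp
        (fun S hS hS0 => by rw [hmapR]; exact hmin_cyc hord hS hS0)
        (by rw [hmapR, Subgroup.zpowers_le]; exact Subgroup.pow_mem _ (Subgroup.mem_zpowers _) _)
        hZne hιF hιι t).trans ?_
      exact_mod_cast hT
    -- the Casimir element
    have hce : ∀ x : MonoidAlgebra k G, x * e = e * x := fun x =>
      commute_of_mem (SubAlg_top x) he.mem.2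
    obtain ⟨w, hw, hwe, hew⟩ := H365.gen he hQ ha hea hi.mem hi.idem
      (by rw [hce, hei]; exact hbr)
    have hRQ : R ≤ Q := hRR.trans hRQ₁
    have heq : KP.qmap k R e = tr (cj k (G ⧸ R)) (Subgroup.zpowers (g : G ⧸ R)) ⊤
        (ι * KP.qmap k R w) := by
      rw [← hmapQ, hι, ← map_mul]
      conv_lhs => rw [hew]
      exact Vale.Agent.P180.R2.H799.qmap_tr hRQ (Subalgebra.mul_mem _ hi.mem hw)
    have hwF : KP.qmap k R w ∈ Fix (cj k (G ⧸ R)) (Subgroup.zpowers (g : G ⧸ R)) := by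
      rw [← hmapQ]
      exact qmap_Fix hw
    have _ := Fintype.ofFinite ((G ⧸ R) ⧸ Subgroup.zpowers (g : G ⧸ R))
    have hcas := cas_group (g := (g : G ⧸ R)) rfl hιF hwF hιι heq
    -- simple modules
    have hne' : ¬ Q ≤ R := by
      intro hle
      have h2 : (g : G ⧸ R) = 1 := (QuotientGroup.eq_one_iff g).mpr (hle hgQ)
      rw [h2, orderOf_one] at hord
      exact absurd hord.symm (Nat.one_lt_pow (Nat.succ_ne_zero m) hp.one_lt).ne'
    have hnil : ∀ y, IsNilpotent (∑ j ∈ Finset.range (p ^ (m + 1)),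
        MonoidAlgebra.single ((g : G ⧸ R) ^ j) (1 : k) * (ι * y * ι) *
          MonoidAlgebra.single ((g : G ⧸ R) ^ j)⁻¹ 1) := by
      intro y
      obtain ⟨y', rfl⟩ := KP.qmap_surjective R y
      have hiy : i * y' * i ∈ Fix (cj k G) R := KP.mem_Fix_of_central hRc _
      have h2 := tr_nilp hQ hRQ hne' hi hbr hiy (by rw [← mul_assoc, ← mul_assoc, hi.idem])
        (by rw [mul_assoc, hi.idem])
      have h3 : tr (cj k G) R Q (i * y' * i) =
          ∑ j : Fin (p ^ (m + 1)), cj k G (g ^ (j : ℕ)) (i * y' * i) := by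
        refine tr_eq_sum' hiy (fun j : Fin (p ^ (m + 1)) => g ^ (j : ℕ))
          (fun j => Q.pow_mem hgQ _) ?_ ?_
        · intro i j hij
          have h4 : ((g ^ (i : ℕ) : G) : G ⧸ R) = (g ^ (j : ℕ) : G) := QuotientGroup.eq.mpr hij
          have h5 : (g : G ⧸ R) ^ (i : ℕ) = (g : G ⧸ R) ^ (j : ℕ) := h4
          apply Fin.ext
          refine pow_injOn_Iio_orderOf ?_ ?_ h5
          · rw [hord]; exact i.2
          · rw [hord]; exact j.2
        · intro x hx
          have h4 : (x : G ⧸ R) ∈ Subgroup.zpowers (g : G ⧸ R) := by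
            rw [← hmapQ]; exact ⟨x, hx, rfl⟩
          obtain ⟨c, hc⟩ := ((isOfFinOrder_of_finite _).mem_powers_iff_mem_zpowers).mpr h4
          have hc' : (g : G ⧸ R) ^ c = x := hc
          refine ⟨⟨c % p ^ (m + 1), Nat.mod_lt _ (pow_pos hp.pos _)⟩, ?_⟩
          rw [← QuotientGroup.eq]
          change (g : G ⧸ R) ^ (c % p ^ (m + 1)) = x
          rw [← hord, pow_mod_orderOf, hc']
      have h4 : KP.qmap k R (tr (cj k G) R Q (i * y' * i)) =
          ∑ j ∈ Finset.range (p ^ (m + 1)),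
            MonoidAlgebra.single ((g : G ⧸ R) ^ j) (1 : k) * (ι * KP.qmap k R y' * ι) *
              MonoidAlgebra.single ((g : G ⧸ R) ^ j)⁻¹ 1 := by
        rw [h3, map_sum, Finset.sum_range]
        refine Finset.sum_congr rfl fun j _ => ?_
        rw [KP.qmap_cj, map_mul, map_mul]
        rfl
      rw [← h4]
      exact h2.map (KP.qmap k R)
    have hgι : MonoidAlgebra.single (g : G ⧸ R) 1 * ι = ι * MonoidAlgebra.single (g : G ⧸ R) 1 :=
      mem_Fix_cj_iff.1 hιF _ (Subgroup.mem_zpowers _)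
    have hgq : (g : G ⧸ R) ^ (p ^ (m + 1)) = 1 := by rw [← hord, pow_orderOf_eq_one]
    have hH : H471.Cyc.Hyp k (KP.qmap k R e) ι (MonoidAlgebra.single (g : G ⧸ R) (1 : k) - 1)
        (p ^ (m + 1)) (n * (p * c * (p * c)))
        (fun q : (G ⧸ R) ⧸ Subgroup.zpowers (g : G ⧸ R) => MonoidAlgebra.single q.out (1 : k))
        (fun q => KP.qmap k R w * MonoidAlgebra.single q.out⁻¹ (1 : k)) := by
      refine ⟨?_, hιι, by rw [hι, ← map_mul, hei], ?_, Nat.one_le_pow _ _ hp.pos, ?_, hcas,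
        fun L hL x => h1_of_nilp (m := m + 1) hgq hιι hgι hnil L hL x, fun t _ _ => htau t⟩
      · intro x
        obtain ⟨x', rfl⟩ := KP.qmap_surjective R x
        rw [← map_mul, ← map_mul, hce]
      · rw [sub_mul, mul_sub, hgι, one_mul, mul_one]
      · have _ : CharP (MonoidAlgebra k (G ⧸ R)) p :=
          charP_of_injective_algebraMap (algebraMap k (MonoidAlgebra k (G ⧸ R))).injective p
        rw [sub_pow_char_pow_of_commute p (m + 1) (Commute.one_right _), one_pow,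
          MonoidAlgebra.single_pow, one_pow, hgq, ← MonoidAlgebra.one_def, sub_self]
    have hfin := H471.Cyc.corner_bound hH
    have hle : NN (⊤ : Subalgebra k (MonoidAlgebra k (G ⧸ R))) ι ι ≤
        LinearMap.range (LinearMap.mulLeft k ι ∘ₗ LinearMap.mulRight k ι) := by
      rintro x ⟨-, h2, h3⟩
      refine ⟨x, ?_⟩
      rw [LinearMap.comp_apply, LinearMap.mulRight_apply, LinearMap.mulLeft_apply, h3, h2]
    have hq : p ^ (m + 1) ≤ n := by
      have h2 : p ^ (m + 1) ≤ Nat.card Q := by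
        rw [← hord, ← Nat.card_zpowers, ← hmapQ]
        exact Nat.le_of_dvd Nat.card_pos (Subgroup.card_map_dvd _ _)
      exact h2.trans hn
    refine (Submodule.finrank_mono hle).trans (hfin.trans ?_)
    unfold cyc
    rw [← hc]
    gcongr

end Vale.Agent.P180.R2.H259.Cyc
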