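import Vale.Agent.P180.R2.H259.Cyc.Quo
import Vale.Agent.P180.R2.H471.Cyc7

set_option linter.all false

/-!
P180: the sum of the elements of a cyclic `p`-group, simple modules, and the case of a central
defect group.
-/

namespace Vale.Agent.P180.R2.H259.Cyc

open Vale.Agent.P180 Vale.Agent.P180.H768.Gd Vale.Agent.P180.R2.H799

universe u

variable {k : Type u} [Field k] {p : ℕ} [Fact p.Prime] [CharP k p] {H : Type} [Group H] [Finite H]

theorem sub_one_pow_eq {A : Type*} [Ring A] [Algebra k A] (x : A) (m : ℕ) :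
    (x - 1) ^ (p ^ m - 1) = ∑ i ∈ Finset.range (p ^ m), x ^ i := by
  have h1 : ((Polynomial.X - 1 : Polynomial k)) ^ (p ^ m - 1) =
      ∑ i ∈ Finset.range (p ^ m), (Polynomial.X : Polynomial k) ^ i := by
    have h0 : (Polynomial.X - 1 : Polynomial k) ≠ 0 := by
      rw [← Polynomial.C_1]
      exact Polynomial.X_sub_C_ne_zero 1
    apply mul_right_cancel₀ h0
    rw [geom_sum_mul, ← pow_succ, Nat.sub_add_cancel (Nat.one_le_pow _ _ (Fact.out : p.Prime).pos),
      sub_pow_char_pow, one_pow]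
  have h2 := congrArg (Polynomial.aeval x) h1
  simpa using h2

theorem pow_sum_shift (g : H) {q : ℕ} (hq : g ^ q = 1) :
    MonoidAlgebra.single g (1 : k) * ∑ i ∈ Finset.range q, MonoidAlgebra.single (g ^ i) (1 : k) =
      ∑ i ∈ Finset.range q, MonoidAlgebra.single (g ^ i) (1 : k) := by
  rw [Finset.mul_sum]
  have h1 : ∀ i, MonoidAlgebra.single g (1 : k) * MonoidAlgebra.single (g ^ i) 1 =
      MonoidAlgebra.single (g ^ (i + 1)) 1 := by
    intro i
    rw [MonoidAlgebra.single_mul_single, one_mul, pow_succ']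
  rw [Finset.sum_congr rfl fun i _ => h1 i]
  have h2 := Finset.sum_range_succ' (fun i => MonoidAlgebra.single (g ^ i) (1 : k)) q
  have h3 := Finset.sum_range_succ (fun i => MonoidAlgebra.single (g ^ i) (1 : k)) q
  rw [h3] at h2
  simp only [hq, pow_zero] at h2
  exact (add_right_cancel h2).symm

theorem pow_mul_sum (g : H) {q : ℕ} (hq : g ^ q = 1) (j : ℕ) :
    MonoidAlgebra.single (g ^ j) (1 : k) *
        ∑ i ∈ Finset.range q, MonoidAlgebra.single (g ^ i) (1 : k) =
      ∑ i ∈ Finset.range q, MonoidAlgebra.single (g ^ i) (1 : k) := by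
  induction j with
  | zero => rw [pow_zero, ← MonoidAlgebra.one_def, one_mul]
  | succ j ih =>
    have h1 : MonoidAlgebra.single (g ^ (j + 1)) (1 : k) =
        MonoidAlgebra.single (g ^ j) 1 * MonoidAlgebra.single g 1 := by
      rw [MonoidAlgebra.single_mul_single, one_mul, pow_succ]
    rw [h1, mul_assoc, pow_sum_shift g hq, ih]

/-- `σ ι` kills the simple modules if the traces `∑ u ι y ι u⁻¹` are nilpotent -/
theorem h1_of_nilp {g : H} {m : ℕ} (hg : g ^ (p ^ m) = 1) {ι : MonoidAlgebra k H}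
    (hιι : ι * ι = ι) (hgι : MonoidAlgebra.single g 1 * ι = ι * MonoidAlgebra.single g 1)
    (hnil : ∀ y, IsNilpotent (∑ i ∈ Finset.range (p ^ m), MonoidAlgebra.single (g ^ i) (1 : k) *
      (ι * y * ι) * MonoidAlgebra.single (g ^ i)⁻¹ 1)) (L : Submodule (MonoidAlgebra k H)
      (MonoidAlgebra k H)) (hL : IsCoatom L) (x : MonoidAlgebra k H) :
    (MonoidAlgebra.single g (1 : k) - 1) ^ (p ^ m - 1) * ι * x ∈ L := by
  set σ : MonoidAlgebra k H := ∑ i ∈ Finset.range (p ^ m), MonoidAlgebra.single (g ^ i) (1 : k)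
    with hσ
  have hσ' : (MonoidAlgebra.single g (1 : k) - 1) ^ (p ^ m - 1) = σ := by
    rw [sub_one_pow_eq (k := k) (p := p), hσ]
    refine Finset.sum_congr rfl fun i _ => ?_
    rw [MonoidAlgebra.single_pow, one_pow]
  rw [hσ']
  have hgi : ∀ i : ℕ, MonoidAlgebra.single (g ^ i) (1 : k) * ι =
      ι * MonoidAlgebra.single (g ^ i) 1 := by
    intro i
    have h1 : Commute (MonoidAlgebra.single g (1 : k)) ι := hgι
    have h2 := h1.pow_left i
    rw [MonoidAlgebra.single_pow, one_pow] at h2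
    exact h2.eq
  have hσι : σ * ι = ι * σ := by
    rw [hσ, Finset.sum_mul, Finset.mul_sum]
    exact Finset.sum_congr rfl fun i _ => hgi i
  have hinv : ∀ i : ℕ, MonoidAlgebra.single (g ^ i)⁻¹ (1 : k) * σ = σ := by
    intro i
    have h1 := pow_mul_sum (k := k) g hg i
    rw [← hσ] at h1
    conv_lhs => rw [← h1]
    rw [← mul_assoc, MonoidAlgebra.single_mul_single, inv_mul_cancel, one_mul,
      ← MonoidAlgebra.one_def, one_mul]
  by_contra hx
  -- the quotient is simple
  have hspan : Submodule.span (MonoidAlgebra k H) {σ * ι * x} ⊔ L = ⊤ := by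
    apply hL.2
    refine lt_of_le_of_ne le_sup_right ?_
    intro h
    apply hx
    rw [h]
    exact Submodule.mem_sup_left (Submodule.mem_span_singleton_self _)
  have h1 : ι * x ∈ Submodule.span (MonoidAlgebra k H) {σ * ι * x} ⊔ L := by
    rw [hspan]; trivial
  obtain ⟨z, hz, l, hl, hzl⟩ := Submodule.mem_sup.mp h1
  obtain ⟨y, rfl⟩ := Submodule.mem_span_singleton.mp hz
  rw [smul_eq_mul] at hzl
  set T := ∑ i ∈ Finset.range (p ^ m), MonoidAlgebra.single (g ^ i) (1 : k) *
      (ι * y * ι) * MonoidAlgebra.single (g ^ i)⁻¹ 1 with hT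
  -- `T σ ι x ≡ σ ι x`
  have h2 : T * (σ * ι * x) - σ * ι * x ∈ L := by
    have h3 : ∀ i : ℕ, MonoidAlgebra.single (g ^ i) (1 : k) *
        (ι * y * ι) * MonoidAlgebra.single (g ^ i)⁻¹ 1 * (σ * ι * x) -
        MonoidAlgebra.single (g ^ i) (1 : k) * ι * x ∈ L := by
      intro i
      have h4 : MonoidAlgebra.single (g ^ i) (1 : k) *
          (ι * y * ι) * MonoidAlgebra.single (g ^ i)⁻¹ 1 * (σ * ι * x) =
          MonoidAlgebra.single (g ^ i) (1 : k) * ι * (y * (σ * ι * x)) := by
        calc MonoidAlgebra.single (g ^ i) (1 : k) *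
            (ι * y * ι) * MonoidAlgebra.single (g ^ i)⁻¹ 1 * (σ * ι * x)
            = MonoidAlgebra.single (g ^ i) (1 : k) * (ι * y * ι) *
              ((MonoidAlgebra.single (g ^ i)⁻¹ 1 * σ) * ι * x) := by simp only [mul_assoc]
          _ = MonoidAlgebra.single (g ^ i) (1 : k) * ι * y * (ι * σ) * ι * x := by
              rw [hinv]; simp only [mul_assoc]
          _ = MonoidAlgebra.single (g ^ i) (1 : k) * ι * y * σ * (ι * ι) * x := by
              rw [← hσι]; simp only [mul_assoc]
          _ = _ := by rw [hιι]; simp only [mul_assoc]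
      have h5 : y * (σ * ι * x) = ι * x - l := by rw [← hzl]; abel
      rw [h4, h5, mul_sub]
      have h6 : MonoidAlgebra.single (g ^ i) (1 : k) * ι * (ι * x) =
          MonoidAlgebra.single (g ^ i) (1 : k) * ι * x := by
        rw [← mul_assoc, mul_assoc _ ι ι, hιι]
      rw [h6, sub_sub_cancel_left]
      exact L.neg_mem (L.smul_mem _ hl)
    have h7 : T * (σ * ι * x) - σ * ι * x = ∑ i ∈ Finset.range (p ^ m),
        (MonoidAlgebra.single (g ^ i) (1 : k) *
        (ι * y * ι) * MonoidAlgebra.single (g ^ i)⁻¹ 1 * (σ * ι * x) -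
        MonoidAlgebra.single (g ^ i) (1 : k) * ι * x) := by
      rw [Finset.sum_sub_distrib, ← Finset.sum_mul, ← hT]
      congr 1
      rw [hσ, Finset.sum_mul, Finset.sum_mul]
    rw [h7]
    exact L.sum_mem fun i _ => h3 i
  have h3 : ∀ n : ℕ, T ^ n * (σ * ι * x) - σ * ι * x ∈ L := by
    intro n
    induction n with
    | zero => rw [pow_zero, one_mul, sub_self]; exact L.zero_mem
    | succ n ih =>
      have h4 : T ^ (n + 1) * (σ * ι * x) - σ * ι * x =
          T * (T ^ n * (σ * ι * x) - σ * ι * x) + (T * (σ * ι * x) - σ * ι * x) := by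
        rw [pow_succ', mul_sub, mul_assoc]; abel
      rw [h4]
      exact L.add_mem (L.smul_mem _ ih) h2
  obtain ⟨n, hn⟩ := hnil y
  have h4 := h3 n
  rw [← hT] at hn
  rw [hn, zero_mul, zero_sub] at h4
  exact hx ((L.neg_mem_iff).mp h4)

end Vale.Agent.P180.R2.H259.Cyc
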